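/-
Snaky achievement game: a checkable proof system for Maker wins.

This file uses only the core library. Positions are lists of cells. A pattern is a pair of bit masks
(M, F): M is a set of cells Maker must hold, F a set of cells Breaker must not hold.
-/

namespace Vale.Agent.Lib.P062.Core

/-- Cells of the plane. -/
abbrev Cell := Int × Int

/-- The six cells of Snaky. -/
def snakyCells : List Cell := [(0, 0), (1, 0), (2, 0), (3, 0), (3, 1), (4, 1)]

/-- The eight signed permutation matrices, indexed by a number. -/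
def orient : Nat → Cell → Cell
  | 0, (a, b) => (a, b)
  | 1, (a, b) => (-b, a)
  | 2, (a, b) => (-a, -b)
  | 3, (a, b) => (b, -a)
  | 4, (a, b) => (a, -b)
  | 5, (a, b) => (-a, b)
  | 6, (a, b) => (b, a)
  | _, (a, b) => (-b, -a)

/-- Maker's list of cells contains an allowed copy of Snaky. -/
def HasCopy (M : List Cell) : Prop :=
  ∃ (t : Cell) (o : Nat), ∀ p ∈ snakyCells,
    ((orient o p).1 + t.1, (orient o p).2 + t.2) ∈ M

/-- Maker, to move, holding `M` against Breaker's `B`, forces a copy within `n` further moves. -/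
def WinL : Nat → List Cell → List Cell → Prop
  | 0, M, _ => HasCopy M
  | n + 1, M, B =>
    HasCopy M ∨ ∃ m, m ∉ M ∧ m ∉ B ∧ ∀ b, b ∉ m :: M → b ∉ B → WinL n (m :: M) (b :: B)

theorem WinL.of_hasCopy {M : List Cell} (h : HasCopy M) (n : Nat) (B : List Cell) : WinL n M B := by
  cases n with
  | zero => exact h
  | succ n => exact Or.inl h

theorem WinL.mono {n : Nat} {M B : List Cell} (h : WinL n M B) : WinL (n + 1) M B := by
  induction n generalizing M B with
  | zero => exact Or.inl h
  | succ n ih =>
    rcases h with h | ⟨m, h1, h2, h3⟩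
    · exact Or.inl h
    · exact Or.inr ⟨m, h1, h2, fun b hb hb' => ih (h3 b hb hb')⟩

theorem WinL.mono_le {n k : Nat} (hk : n ≤ k) {M B : List Cell} (h : WinL n M B) : WinL k M B := by
  induction hk with
  | refl => exact h
  | step _ ih => exact WinL.mono ih

/-- Row width of the numbering of cells by natural numbers. -/
def W : Nat := 20

/-- The cell with number `i`. -/
def cellOf (i : Nat) : Cell := (((i % W : Nat) : Int), ((i / W : Nat) : Int))

theorem cellOf_injective {i j : Nat} (h : cellOf i = cellOf j) : i = j := by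
  simp only [cellOf, Prod.mk.injEq] at h
  have h1 : i % W = j % W := by omega
  have h2 : i / W = j / W := by omega
  have := Nat.div_add_mod i W
  have := Nat.div_add_mod j W
  simp only [h1, h2] at *
  omega

/-- Every cell of `mask` lies in `L`. -/
def Holds (mask : Nat) (L : List Cell) : Prop := ∀ i, mask.testBit i = true → cellOf i ∈ L

/-- No cell of `mask` lies in `L`. -/
def Avoids (mask : Nat) (L : List Cell) : Prop := ∀ i, mask.testBit i = true → cellOf i ∉ L

/-- The premises shared by all patterns. -/
def Fits (M F : Nat) (M' B' : List Cell) : Prop :=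
  Holds M M' ∧ Avoids F B' ∧ ∀ c ∈ M', c ∉ B'

/-- Maker to move wins from every position fitting the pattern, within a uniform bound. -/
def ValidO (M F : Nat) : Prop := ∃ n, ∀ M' B', Fits M F M' B' → WinL n M' B'

/-- Breaker to move loses from every position fitting the pattern, within a uniform bound. -/
def ValidA (M F : Nat) : Prop :=
  ∃ n, ∀ M' B', Fits M F M' B' → ∀ b, b ∉ M' → b ∉ B' → WinL n M' (b :: B')

/-- A partial conjunction of proofs for the replies of Breaker. -/
def ValidC (M I U : Nat) : Prop :=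
  ∃ n, ∀ M' B', Holds M M' → (∀ i, U.testBit i = true → M.testBit i = false → cellOf i ∉ B') →
    (∀ c ∈ M', c ∉ B') → ∀ b, b ∉ M' → b ∉ B' →
      (∃ i, I.testBit i = true ∧ cellOf i = b) ∨ WinL n M' (b :: B')

/-- The single bit of a cell number. -/
def bit (i : Nat) : Nat := Nat.shiftLeft 1 i

theorem testBit_bit (i j : Nat) : (bit i).testBit j = decide (i = j) := by
  have : bit i = 1 <<< i := rfl
  rw [this, Nat.one_shiftLeft, Nat.testBit_two_pow]

/-- A list of bit numbers as a mask. -/
def maskOf : List Nat → Nat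
  | [] => 0
  | a :: l => Nat.lor (bit a) (maskOf l)

theorem testBit_maskOf (l : List Nat) (j : Nat) : (maskOf l).testBit j = decide (j ∈ l) := by
  induction l with
  | nil => simp [maskOf]
  | cons a l ih =>
    have : maskOf (a :: l) = bit a ||| maskOf l := rfl
    rw [this, Nat.testBit_or, testBit_bit, ih]
    by_cases h1 : a = j <;> by_cases h2 : j ∈ l <;> simp [h1, h2, List.mem_cons] <;> omega

/-- The numbers, relative to an anchor, of the cells of a copy with orientation `o`. -/
def offs (o : Nat) : List Nat :=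
  match o with
  | 0 => [0, 1, 2, 3, 23, 24]
  | 1 => [1, 21, 41, 61, 60, 80]
  | 2 => [24, 23, 22, 21, 1, 0]
  | 3 => [80, 60, 40, 20, 21, 1]
  | 4 => [20, 21, 22, 23, 3, 4]
  | 5 => [4, 3, 2, 1, 21, 20]
  | 6 => [0, 20, 40, 60, 61, 81]
  | _ => [81, 61, 41, 21, 20, 0]

/-- The mask of `offs o`, as a literal. -/
def base (o : Nat) : Nat :=
  match o with
  | 0 => 25165839
  | 1 => 1208929278381342020599810
  | 2 => 31457283
  | 3 => 1208926972537233296326658
  | 4 => 15728664
  | 5 => 3145758
  | 6 => 2417855097994871682629633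
  | _ => 2417853945074466589507585

theorem base_eq (o : Nat) : base o = maskOf (offs o) := by
  rcases o with _ | _ | _ | _ | _ | _ | _ | o <;> first | rfl | (simp only [base, offs]; rfl)

theorem testBit_base (o j : Nat) : (base o).testBit j = decide (j ∈ offs o) := by
  rw [base_eq, testBit_maskOf]

theorem cellOf_add (x y ax ay : Nat) (hx : x + ax < W) :
    cellOf (x + W * y + (ax + W * ay)) = (((x + ax : Nat) : Int), ((y + ay : Nat) : Int)) := by
  have h1 : x + W * y + (ax + W * ay) = (x + ax) + W * (y + ay) := by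
    rw [Nat.mul_add]; omega
  rw [h1]
  simp only [cellOf]
  have hW : 0 < W := by decide
  rw [Nat.add_mul_mod_self_left, Nat.mod_eq_of_lt hx, Nat.add_mul_div_left _ _ hW,
    Nat.div_eq_of_lt hx, Nat.zero_add]

/-- The modulus for the column of the anchor of a copy, so that the copy never wraps around. -/
def colMod (o : Nat) : Nat :=
  match o with
  | 0 => 16
  | 1 => 19
  | 2 => 16
  | 3 => 19
  | 4 => 16
  | 5 => 16
  | 6 => 19
  | _ => 19

theorem colMod_pos (o : Nat) : 0 < colMod o := by
  rcases o with _ | _ | _ | _ | _ | _ | _ | o <;> first | decide | (simp only [colMod]; decide)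

/-- The anchor number of the copy: the column is reduced so that the copy never wraps around. -/
def anchor (o x y : Nat) : Nat := Nat.add (Nat.mod x (colMod o)) (Nat.mul W y)

theorem mem_helper (o X y ax ay : Nat) (M' : List Cell) (hX : X + ax < W)
    (h : ∀ a ∈ offs o, cellOf (X + W * y + a) ∈ M')
    (hm : ax + W * ay ∈ offs o) {c : Cell}
    (hc : c = (((X + ax : Nat) : Int), ((y + ay : Nat) : Int))) : c ∈ M' := by
  have := h _ hm
  rw [cellOf_add X y ax ay hX] at this
  rw [hc]; exact this

theorem hasCopy_of_offs (o x y : Nat) (M' : List Cell)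
    (h : ∀ a ∈ offs o, cellOf (anchor o x y + a) ∈ M') : HasCopy M' := by
  have hx : x % (colMod o) < colMod o := Nat.mod_lt _ (colMod_pos o)
  generalize hX : x % (colMod o) = X at hx
  have ha : ∀ a, anchor o x y + a = X + W * y + a := by
    intro a; simp only [anchor, ← hX]; rfl
  simp only [ha] at h
  have hs : ∀ p ∈ snakyCells, p = (0, 0) ∨ p = (1, 0) ∨ p = (2, 0) ∨ p = (3, 0) ∨ p = (3, 1) ∨ p = (4, 1) := by
    intro p hp; simpa [snakyCells] using hp
  rcases o with _ | _ | _ | _ | _ | _ | _ | o
  · -- orientation 0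
    have hx' : X < colMod 0 := hx
    have hx'' : X + 4 < W := by have : colMod 0 + 4 = W := rfl; omega
    refine ⟨(((X + 0 : Nat) : Int), ((y + 0 : Nat) : Int)), 0, ?_⟩
    intro p hp
    rcases hs p hp with rfl | rfl | rfl | rfl | rfl | rfl
    · refine mem_helper 0 X y 0 0 M' (by omega) h (by decide) (Prod.ext ?_ ?_) <;> simp only [orient] <;> omega
    · refine mem_helper 0 X y 1 0 M' (by omega) h (by decide) (Prod.ext ?_ ?_) <;> simp only [orient] <;> omega
    · refine mem_helper 0 X y 2 0 M' (by omega) h (by decide) (Prod.ext ?_ ?_) <;> simp only [orient] <;> omega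
    · refine mem_helper 0 X y 3 0 M' (by omega) h (by decide) (Prod.ext ?_ ?_) <;> simp only [orient] <;> omega
    · refine mem_helper 0 X y 3 1 M' (by omega) h (by decide) (Prod.ext ?_ ?_) <;> simp only [orient] <;> omega
    · refine mem_helper 0 X y 4 1 M' (by omega) h (by decide) (Prod.ext ?_ ?_) <;> simp only [orient] <;> omega
  · -- orientation 1
    have hx' : X < colMod 1 := hx
    have hx'' : X + 1 < W := by have : colMod 1 + 1 = W := rfl; omega
    refine ⟨(((X + 1 : Nat) : Int), ((y + 0 : Nat) : Int)), 1, ?_⟩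
    intro p hp
    rcases hs p hp with rfl | rfl | rfl | rfl | rfl | rfl
    · refine mem_helper 1 X y 1 0 M' (by omega) h (by decide) (Prod.ext ?_ ?_) <;> simp only [orient] <;> omega
    · refine mem_helper 1 X y 1 1 M' (by omega) h (by decide) (Prod.ext ?_ ?_) <;> simp only [orient] <;> omega
    · refine mem_helper 1 X y 1 2 M' (by omega) h (by decide) (Prod.ext ?_ ?_) <;> simp only [orient] <;> omega
    · refine mem_helper 1 X y 1 3 M' (by omega) h (by decide) (Prod.ext ?_ ?_) <;> simp only [orient] <;> omega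
    · refine mem_helper 1 X y 0 3 M' (by omega) h (by decide) (Prod.ext ?_ ?_) <;> simp only [orient] <;> omega
    · refine mem_helper 1 X y 0 4 M' (by omega) h (by decide) (Prod.ext ?_ ?_) <;> simp only [orient] <;> omega
  · -- orientation 2
    have hx' : X < colMod 2 := hx
    have hx'' : X + 4 < W := by have : colMod 2 + 4 = W := rfl; omega
    refine ⟨(((X + 4 : Nat) : Int), ((y + 1 : Nat) : Int)), 2, ?_⟩
    intro p hp
    rcases hs p hp with rfl | rfl | rfl | rfl | rfl | rfl
    · refine mem_helper 2 X y 4 1 M' (by omega) h (by decide) (Prod.ext ?_ ?_) <;> simp only [orient] <;> omega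
    · refine mem_helper 2 X y 3 1 M' (by omega) h (by decide) (Prod.ext ?_ ?_) <;> simp only [orient] <;> omega
    · refine mem_helper 2 X y 2 1 M' (by omega) h (by decide) (Prod.ext ?_ ?_) <;> simp only [orient] <;> omega
    · refine mem_helper 2 X y 1 1 M' (by omega) h (by decide) (Prod.ext ?_ ?_) <;> simp only [orient] <;> omega
    · refine mem_helper 2 X y 1 0 M' (by omega) h (by decide) (Prod.ext ?_ ?_) <;> simp only [orient] <;> omega
    · refine mem_helper 2 X y 0 0 M' (by omega) h (by decide) (Prod.ext ?_ ?_) <;> simp only [orient] <;> omega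
  · -- orientation 3
    have hx' : X < colMod 3 := hx
    have hx'' : X + 1 < W := by have : colMod 3 + 1 = W := rfl; omega
    refine ⟨(((X + 0 : Nat) : Int), ((y + 4 : Nat) : Int)), 3, ?_⟩
    intro p hp
    rcases hs p hp with rfl | rfl | rfl | rfl | rfl | rfl
    · refine mem_helper 3 X y 0 4 M' (by omega) h (by decide) (Prod.ext ?_ ?_) <;> simp only [orient] <;> omega
    · refine mem_helper 3 X y 0 3 M' (by omega) h (by decide) (Prod.ext ?_ ?_) <;> simp only [orient] <;> omega
    · refine mem_helper 3 X y 0 2 M' (by omega) h (by decide) (Prod.ext ?_ ?_) <;> simp only [orient] <;> omega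
    · refine mem_helper 3 X y 0 1 M' (by omega) h (by decide) (Prod.ext ?_ ?_) <;> simp only [orient] <;> omega
    · refine mem_helper 3 X y 1 1 M' (by omega) h (by decide) (Prod.ext ?_ ?_) <;> simp only [orient] <;> omega
    · refine mem_helper 3 X y 1 0 M' (by omega) h (by decide) (Prod.ext ?_ ?_) <;> simp only [orient] <;> omega
  · -- orientation 4
    have hx' : X < colMod 4 := hx
    have hx'' : X + 4 < W := by have : colMod 4 + 4 = W := rfl; omega
    refine ⟨(((X + 0 : Nat) : Int), ((y + 1 : Nat) : Int)), 4, ?_⟩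
    intro p hp
    rcases hs p hp with rfl | rfl | rfl | rfl | rfl | rfl
    · refine mem_helper 4 X y 0 1 M' (by omega) h (by decide) (Prod.ext ?_ ?_) <;> simp only [orient] <;> omega
    · refine mem_helper 4 X y 1 1 M' (by omega) h (by decide) (Prod.ext ?_ ?_) <;> simp only [orient] <;> omega
    · refine mem_helper 4 X y 2 1 M' (by omega) h (by decide) (Prod.ext ?_ ?_) <;> simp only [orient] <;> omega
    · refine mem_helper 4 X y 3 1 M' (by omega) h (by decide) (Prod.ext ?_ ?_) <;> simp only [orient] <;> omega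
    · refine mem_helper 4 X y 3 0 M' (by omega) h (by decide) (Prod.ext ?_ ?_) <;> simp only [orient] <;> omega
    · refine mem_helper 4 X y 4 0 M' (by omega) h (by decide) (Prod.ext ?_ ?_) <;> simp only [orient] <;> omega
  · -- orientation 5
    have hx' : X < colMod 5 := hx
    have hx'' : X + 4 < W := by have : colMod 5 + 4 = W := rfl; omega
    refine ⟨(((X + 4 : Nat) : Int), ((y + 0 : Nat) : Int)), 5, ?_⟩
    intro p hp
    rcases hs p hp with rfl | rfl | rfl | rfl | rfl | rfl
    · refine mem_helper 5 X y 4 0 M' (by omega) h (by decide) (Prod.ext ?_ ?_) <;> simp only [orient] <;> omega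
    · refine mem_helper 5 X y 3 0 M' (by omega) h (by decide) (Prod.ext ?_ ?_) <;> simp only [orient] <;> omega
    · refine mem_helper 5 X y 2 0 M' (by omega) h (by decide) (Prod.ext ?_ ?_) <;> simp only [orient] <;> omega
    · refine mem_helper 5 X y 1 0 M' (by omega) h (by decide) (Prod.ext ?_ ?_) <;> simp only [orient] <;> omega
    · refine mem_helper 5 X y 1 1 M' (by omega) h (by decide) (Prod.ext ?_ ?_) <;> simp only [orient] <;> omega
    · refine mem_helper 5 X y 0 1 M' (by omega) h (by decide) (Prod.ext ?_ ?_) <;> simp only [orient] <;> omega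
  · -- orientation 6
    have hx' : X < colMod 6 := hx
    have hx'' : X + 1 < W := by have : colMod 6 + 1 = W := rfl; omega
    refine ⟨(((X + 0 : Nat) : Int), ((y + 0 : Nat) : Int)), 6, ?_⟩
    intro p hp
    rcases hs p hp with rfl | rfl | rfl | rfl | rfl | rfl
    · refine mem_helper 6 X y 0 0 M' (by omega) h (by decide) (Prod.ext ?_ ?_) <;> simp only [orient] <;> omega
    · refine mem_helper 6 X y 0 1 M' (by omega) h (by decide) (Prod.ext ?_ ?_) <;> simp only [orient] <;> omega
    · refine mem_helper 6 X y 0 2 M' (by omega) h (by decide) (Prod.ext ?_ ?_) <;> simp only [orient] <;> omega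
    · refine mem_helper 6 X y 0 3 M' (by omega) h (by decide) (Prod.ext ?_ ?_) <;> simp only [orient] <;> omega
    · refine mem_helper 6 X y 1 3 M' (by omega) h (by decide) (Prod.ext ?_ ?_) <;> simp only [orient] <;> omega
    · refine mem_helper 6 X y 1 4 M' (by omega) h (by decide) (Prod.ext ?_ ?_) <;> simp only [orient] <;> omega
  · -- orientation 7
    have h' : ∀ a ∈ offs 7, cellOf (X + W * y + a) ∈ M' := h
    have hx' : X < colMod 7 := hx
    have hx'' : X + 1 < W := by have : colMod 7 + 1 = W := rfl; omega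
    refine ⟨(((X + 1 : Nat) : Int), ((y + 4 : Nat) : Int)), 7, ?_⟩
    intro p hp
    rcases hs p hp with rfl | rfl | rfl | rfl | rfl | rfl
    · refine mem_helper 7 X y 1 4 M' (by omega) h' (by decide) (Prod.ext ?_ ?_) <;> simp only [orient] <;> omega
    · refine mem_helper 7 X y 1 3 M' (by omega) h' (by decide) (Prod.ext ?_ ?_) <;> simp only [orient] <;> omega
    · refine mem_helper 7 X y 1 2 M' (by omega) h' (by decide) (Prod.ext ?_ ?_) <;> simp only [orient] <;> omega
    · refine mem_helper 7 X y 1 1 M' (by omega) h' (by decide) (Prod.ext ?_ ?_) <;> simp only [orient] <;> omega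
    · refine mem_helper 7 X y 0 1 M' (by omega) h' (by decide) (Prod.ext ?_ ?_) <;> simp only [orient] <;> omega
    · refine mem_helper 7 X y 0 0 M' (by omega) h' (by decide) (Prod.ext ?_ ?_) <;> simp only [orient] <;> omega

/-- Column of the offset `off o c`, used in the win rule. -/
def off (o c : Nat) : Nat :=
  match o with
  | 0 => match c with | 0 => 0 | 1 => 1 | 2 => 2 | 3 => 3 | 4 => 23 | _ => 24
  | 1 => match c with | 0 => 1 | 1 => 21 | 2 => 41 | 3 => 61 | 4 => 60 | _ => 80
  | 2 => match c with | 0 => 24 | 1 => 23 | 2 => 22 | 3 => 21 | 4 => 1 | _ => 0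
  | 3 => match c with | 0 => 80 | 1 => 60 | 2 => 40 | 3 => 20 | 4 => 21 | _ => 1
  | 4 => match c with | 0 => 20 | 1 => 21 | 2 => 22 | 3 => 23 | 4 => 3 | _ => 4
  | 5 => match c with | 0 => 4 | 1 => 3 | 2 => 2 | 3 => 1 | 4 => 21 | _ => 20
  | 6 => match c with | 0 => 0 | 1 => 20 | 2 => 40 | 3 => 60 | 4 => 61 | _ => 81
  | _ => match c with | 0 => 81 | 1 => 61 | 2 => 41 | 3 => 21 | 4 => 20 | _ => 0

theorem off_mem (o c : Nat) : off o c ∈ offs o := by
  rcases o with _ | _ | _ | _ | _ | _ | _ | o <;> rcases c with _ | _ | _ | _ | _ | c <;> simp [off, offs]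

theorem exists_fresh (L : List Cell) : ∃ c, c ∉ L := by
  suffices h : ∀ L : List Cell, ∃ K : Int, ∀ c ∈ L, c.1 < K by
    obtain ⟨K, hK⟩ := h L
    exact ⟨(K, 0), fun hc => by have := hK _ hc; simp at this⟩
  intro L
  induction L with
  | nil => exact ⟨0, by simp⟩
  | cons a l ih =>
    obtain ⟨K, hK⟩ := ih
    refine ⟨max K (a.1 + 1), ?_⟩
    intro c hc
    rcases List.mem_cons.mp hc with rfl | hc
    · omega
    · have := hK c hc; omega

/-- Pattern with Maker to move, with its proof. -/
structure OP where
  M : Nat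
  F : Nat
  h : ValidO M F

/-- Pattern with Breaker to move, with its proof. -/
structure AP where
  M : Nat
  F : Nat
  h : ValidA M F

/-- Partial conjunction, with its proof. -/
structure CP where
  M : Nat
  I : Nat
  U : Nat
  h : ValidC M I U

theorem win_valid (o x y c : Nat) :
    ValidO (Nat.xor (Nat.shiftLeft (base o) (anchor o x y)) (bit (Nat.add (anchor o x y) (off o c))))
      (bit (Nat.add (anchor o x y) (off o c))) := by
  refine ⟨1, fun M' B' hf => ?_⟩
  rcases hf with ⟨hM, hF, _⟩
  have hb : Nat.add (anchor o x y) (off o c) = anchor o x y + off o c := rfl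
  rw [hb] at hM hF
  have hF' := hF (anchor o x y + off o c) (by rw [testBit_bit]; simp)
  have hother : ∀ a ∈ offs o, a ≠ off o c → cellOf (anchor o x y + a) ∈ M' := by
    intro a ha hne
    apply hM
    have h1 : Nat.xor (Nat.shiftLeft (base o) (anchor o x y)) (bit (anchor o x y + off o c))
        = (base o <<< anchor o x y) ^^^ bit (anchor o x y + off o c) := rfl
    rw [h1, Nat.testBit_xor, Nat.testBit_shiftLeft, testBit_bit, testBit_base]
    have h2 : anchor o x y + a ≥ anchor o x y := by omega
    have h3 : anchor o x y + a - anchor o x y = a := by omega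
    have h4 : ¬ off o c = a := fun h => hne h.symm
    simp [h2, h3, h4, ha]
  by_cases hx : cellOf (anchor o x y + off o c) ∈ M'
  · refine Or.inl (hasCopy_of_offs o x y M' ?_)
    intro a ha
    by_cases hne : a = off o c
    · rw [hne]; exact hx
    · exact hother a ha hne
  · refine Or.inr ⟨_, hx, hF', fun b _ _ => ?_⟩
    refine hasCopy_of_offs o x y _ ?_
    intro a ha
    by_cases hne : a = off o c
    · rw [hne]; exact List.mem_cons_self
    · exact List.mem_cons_of_mem _ (hother a ha hne)

/-- A Maker win: the copy at anchor (x, y), orientation o, with all cells held but the c-th. -/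
def win (o x y c : Nat) : OP :=
  ⟨Nat.xor (Nat.shiftLeft (base o) (anchor o x y)) (bit (Nat.add (anchor o x y) (off o c))),
   bit (Nat.add (anchor o x y) (off o c)), win_valid o x y c⟩

theorem or_valid {M F : Nat} (m : Nat) (h : ValidA M F) :
    ValidO (Nat.xor M (Nat.land M (bit m))) (Nat.lor F (bit m)) := by
  obtain ⟨n, hn⟩ := h
  refine ⟨n + 1, fun M' B' hf => ?_⟩
  rcases hf with ⟨hM, hF, hd⟩
  have hm : cellOf m ∉ B' := by
    apply hF m
    have : Nat.lor F (bit m) = F ||| bit m := rfl
    rw [this, Nat.testBit_or, testBit_bit]; simp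
  have hbits : ∀ i, M.testBit i = true → i ≠ m → cellOf i ∈ M' := by
    intro i hi hne
    apply hM
    have h1 : Nat.xor M (Nat.land M (bit m)) = M ^^^ (M &&& bit m) := rfl
    rw [h1, Nat.testBit_xor, Nat.testBit_and, testBit_bit]
    have : ¬ m = i := fun h => hne h.symm
    simp [hi, this]
  have hFF : ∀ i, F.testBit i = true → cellOf i ∉ B' := by
    intro i hi
    apply hF i
    have : Nat.lor F (bit m) = F ||| bit m := rfl
    rw [this, Nat.testBit_or, hi]; simp
  by_cases hc : cellOf m ∈ M'
  · obtain ⟨y, hy⟩ := exists_fresh (M' ++ B')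
    have hy1 : y ∉ M' := fun h => hy (List.mem_append_left _ h)
    have hy2 : y ∉ B' := fun h => hy (List.mem_append_right _ h)
    refine Or.inr ⟨y, hy1, hy2, fun b hb hb' => ?_⟩
    refine hn (y :: M') B' ⟨?_, hFF, ?_⟩ b hb hb'
    · intro i hi
      by_cases hie : i = m
      · rw [hie]; exact List.mem_cons_of_mem _ hc
      · exact List.mem_cons_of_mem _ (hbits i hi hie)
    · intro c hc'
      rcases List.mem_cons.mp hc' with rfl | hc'
      · exact hy2
      · exact hd c hc'
  · refine Or.inr ⟨cellOf m, hc, hm, fun b hb hb' => ?_⟩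
    refine hn (cellOf m :: M') B' ⟨?_, hFF, ?_⟩ b hb hb'
    · intro i hi
      by_cases hie : i = m
      · rw [hie]; exact List.mem_cons_self
      · exact List.mem_cons_of_mem _ (hbits i hi hie)
    · intro c hc'
      rcases List.mem_cons.mp hc' with rfl | hc'
      · exact hm
      · exact hd c hc'

/-- Maker plays cell number `m` and reaches a position where Breaker is to move. -/
def orK (m : Nat) (a : AP) : OP :=
  ⟨Nat.xor a.M (Nat.land a.M (bit m)), Nat.lor a.F (bit m), or_valid m a.h⟩

theorem tenuki_valid {M F : Nat} (h : ValidA M F) : ValidO M F := by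
  obtain ⟨n, hn⟩ := h
  refine ⟨n + 1, fun M' B' hf => ?_⟩
  rcases hf with ⟨hM, hF, hd⟩
  obtain ⟨y, hy⟩ := exists_fresh (M' ++ B')
  have hy1 : y ∉ M' := fun h => hy (List.mem_append_left _ h)
  have hy2 : y ∉ B' := fun h => hy (List.mem_append_right _ h)
  refine Or.inr ⟨y, hy1, hy2, fun b hb hb' => ?_⟩
  refine hn (y :: M') B' ⟨fun i hi => List.mem_cons_of_mem _ (hM i hi), hF, ?_⟩ b hb hb'
  intro c hc'
  rcases List.mem_cons.mp hc' with rfl | hc'
  · exact hy2
  · exact hd c hc'

/-- Maker plays an arbitrary fresh cell: a pattern with Breaker to move also wins with Maker to move. -/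
def tenuki (a : AP) : OP := ⟨a.M, a.F, tenuki_valid a.h⟩

theorem start_valid {M F : Nat} (h : ValidO M F) : ValidC M F F := by
  obtain ⟨n, hn⟩ := h
  refine ⟨n, fun M' B' hM hU hd b hb hb' => ?_⟩
  by_cases hi : ∃ i, F.testBit i = true ∧ cellOf i = b
  · exact Or.inl hi
  · refine Or.inr (hn M' (b :: B') ⟨hM, ?_, ?_⟩)
    · intro i hFi hmem
      rcases List.mem_cons.mp hmem with he | hmem
      · exact hi ⟨i, hFi, he⟩
      · by_cases hMi : M.testBit i = true
        · exact hd _ (hM i hMi) hmem
        · exact hU i hFi (by simpa using hMi) hmem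
    · intro c hc hmem
      rcases List.mem_cons.mp hmem with rfl | hmem
      · exact hb hc
      · exact hd c hc hmem

/-- The first proof of a conjunction. -/
def start (x : OP) : CP := ⟨x.M, x.F, x.F, start_valid x.h⟩

theorem add_valid {M I U M2 F2 : Nat} (h : ValidC M I U) (h2 : ValidO M2 F2) :
    ValidC (Nat.lor M M2) (Nat.land I F2) (Nat.lor U F2) := by
  obtain ⟨n, hn⟩ := h
  obtain ⟨n2, hn2⟩ := h2
  refine ⟨max n n2, fun M' B' hM hU hd b hb hb' => ?_⟩
  have hlor : ∀ a c : Nat, Nat.lor a c = a ||| c := fun _ _ => rfl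
  have hland : ∀ a c : Nat, Nat.land a c = a &&& c := fun _ _ => rfl
  rw [hlor] at hM hU
  rw [hlor] at hU
  have hM1 : Holds M M' := fun i hi => hM i (by rw [Nat.testBit_or, hi]; simp)
  have hM2 : Holds M2 M' := fun i hi => hM i (by rw [Nat.testBit_or, hi]; simp)
  have hU1 : ∀ i, U.testBit i = true → M.testBit i = false → cellOf i ∉ B' := by
    intro i hi hm
    by_cases hm2 : M2.testBit i = true
    · exact hd _ (hM2 i hm2)
    · exact hU i (by rw [Nat.testBit_or, hi]; simp) (by rw [Nat.testBit_or, hm]; simpa using hm2)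
  have hF2 : ∀ i, F2.testBit i = true → cellOf i ∉ B' := by
    intro i hi
    by_cases hm : (M ||| M2).testBit i = true
    · rw [Nat.testBit_or] at hm
      rcases Bool.or_eq_true _ _ |>.mp hm with hm | hm
      · exact hd _ (hM1 i hm)
      · exact hd _ (hM2 i hm)
    · exact hU i (by rw [Nat.testBit_or, hi]; simp) (by simpa using hm)
  have usekid : (∀ i, F2.testBit i = true → cellOf i ≠ b) → WinL (max n n2) M' (b :: B') := by
    intro hne
    refine WinL.mono_le (Nat.le_max_right _ _) (hn2 M' (b :: B') ⟨hM2, ?_, ?_⟩)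
    · intro i hi hmem
      rcases List.mem_cons.mp hmem with he | hmem
      · exact hne i hi he
      · exact hF2 i hi hmem
    · intro c hc hmem
      rcases List.mem_cons.mp hmem with rfl | hmem
      · exact hb hc
      · exact hd c hc hmem
  rcases hn M' B' hM1 hU1 hd b hb hb' with ⟨i, hIi, hci⟩ | hw
  · by_cases hFi : F2.testBit i = true
    · exact Or.inl ⟨i, by rw [hland, Nat.testBit_and, hIi, hFi]; rfl, hci⟩
    · refine Or.inr (usekid ?_)
      intro j hj hcj
      have : j = i := cellOf_injective (hcj.trans hci.symm)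
      rw [this] at hj
      exact hFi hj
  · exact Or.inr (WinL.mono_le (Nat.le_max_left _ _) hw)

/-- A further proof of a conjunction. -/
def add (c : CP) (x : OP) : CP :=
  ⟨Nat.lor c.M x.M, Nat.land c.I x.F, Nat.lor c.U x.F, add_valid c.h x.h⟩

theorem fin_valid {M I U : Nat} (h : ValidC M I U) :
    ValidA (Nat.lor M I) (Nat.xor U (Nat.land U (Nat.lor M I))) := by
  obtain ⟨n, hn⟩ := h
  refine ⟨n, fun M' B' hf b hb hb' => ?_⟩
  rcases hf with ⟨hMI, hF, hd⟩
  have hlor : ∀ a c : Nat, Nat.lor a c = a ||| c := fun _ _ => rfl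
  rw [hlor] at hMI
  have hM : Holds M M' := fun i hi => hMI i (by rw [Nat.testBit_or, hi]; simp)
  have hI : Holds I M' := fun i hi => hMI i (by rw [Nat.testBit_or, hi]; simp)
  have hU : ∀ i, U.testBit i = true → M.testBit i = false → cellOf i ∉ B' := by
    intro i hi hm
    by_cases hIi : I.testBit i = true
    · exact hd _ (hI i hIi)
    · apply hF i
      have h1 : Nat.xor U (Nat.land U (Nat.lor M I)) = U ^^^ (U &&& (M ||| I)) := rfl
      rw [h1, Nat.testBit_xor, Nat.testBit_and, Nat.testBit_or, hi, hm]
      simpa using hIi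
  rcases hn M' B' hM hU hd b hb hb' with ⟨i, hIi, hci⟩ | hw
  · exact absurd (hci ▸ hI i hIi) hb
  · exact hw

/-- Close a conjunction: every reply of Breaker is covered, cells in all kids must be Maker's. -/
def fin (c : CP) : AP :=
  ⟨Nat.lor c.M c.I, Nat.xor c.U (Nat.land c.U (Nat.lor c.M c.I)), fin_valid c.h⟩

/-- A pattern with no Maker requirement gives a Maker win from the empty position. -/
theorem win_of_root (x : OP) (h : x.M = 0) : ∃ n, WinL n [] [] := by
  obtain ⟨M, F, hv⟩ := x
  obtain ⟨n, hn⟩ := hv
  simp only at h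
  subst h
  exact ⟨n, hn [] [] ⟨fun i hi => by simp at hi, fun _ _ => by simp, fun _ hc => by simp at hc⟩⟩

end Vale.Agent.Lib.P062.Core
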