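import Mathlib

namespace Vale.Agent.Lib.P062

/-- Cells of the square grid, each indexed by its lower-left corner. -/
abbrev Cell := ℤ × ℤ

/-- The hexomino Snaky. -/
def snaky : Finset Cell := {(0, 0), (1, 0), (2, 0), (3, 0), (3, 1), (4, 1)}

/-- The matrix with rows `(a, b)` and `(c, d)` is one of the eight signed permutation matrices. -/
def IsSignedPerm (a b c d : ℤ) : Prop :=
  ((a = 1 ∨ a = -1) ∧ b = 0 ∧ c = 0 ∧ (d = 1 ∨ d = -1)) ∨
  (a = 0 ∧ (b = 1 ∨ b = -1) ∧ (c = 1 ∨ c = -1) ∧ d = 0)

/-- `C` is an allowed copy of Snaky: its image under a signed permutation matrix and a translation. -/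
def IsAllowedCopy (C : Finset Cell) : Prop :=
  ∃ a b c d t₁ t₂ : ℤ, IsSignedPerm a b c d ∧
    C = snaky.image fun p => (a * p.1 + b * p.2 + t₁, c * p.1 + d * p.2 + t₂)

/-- The cell set `M` contains every cell of some allowed copy of Snaky. -/
def OwnsCopy (M : Finset Cell) : Prop := ∃ C, IsAllowedCopy C ∧ C ⊆ M

/-- `MakerForces n M B`: it is Maker's turn, Maker owns `M`, Breaker owns `B`, and Maker can force
ownership of an allowed copy within at most `n` further Maker moves, whatever Breaker replies. -/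
def MakerForces : ℕ → Finset Cell → Finset Cell → Prop
  | 0, M, _ => OwnsCopy M
  | n + 1, M, B =>
      OwnsCopy M ∨ ∃ m, m ∉ M ∧ m ∉ B ∧
        ∀ b, b ∉ insert m M → b ∉ B → MakerForces n (insert m M) (insert b B)

end Vale.Agent.Lib.P062
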