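import Mathlib
import Vale.Agent.Lib.P062.Defs
import Vale.Agent.Lib.P062.Chk

set_option linter.unusedSimpArgs false

namespace Vale.Agent.Lib.P062

open Chk

/-- Monotonicity of `MakerForces` in the number of moves. -/
theorem MakerForces.succ {n : ℕ} {M B : Finset Cell} (h : MakerForces n M B) :
    MakerForces (n + 1) M B := by
  induction n generalizing M B with
  | zero => exact Or.inl h
  | succ n ih =>
    rcases h with h | ⟨m, h1, h2, h3⟩
    · exact Or.inl h
    · exact Or.inr ⟨m, h1, h2, fun b hb hb' => ih (h3 b hb hb')⟩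

theorem MakerForces.mono {n n' : ℕ} (hn : n ≤ n') {M B : Finset Cell}
    (h : MakerForces n M B) : MakerForces n' M B := by
  induction hn with
  | refl => exact h
  | step _ ih => exact ih.succ

theorem MakerForces.of_owns {M B : Finset Cell} (h : OwnsCopy M) (n : ℕ) : MakerForces n M B := by
  cases n with
  | zero => exact h
  | succ n => exact Or.inl h

/-- The cell of bit index `i`. -/
def cellOf (i : ℕ) : Cell := (((i % 32 : ℕ) : ℤ), ((i / 32 : ℕ) : ℤ))

theorem cellOf_inj {i j : ℕ} (h : cellOf i = cellOf j) : i = j := by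
  simp only [cellOf, Prod.mk.injEq, Nat.cast_inj] at h
  omega

/-- The cells of a mask. -/
noncomputable def cells (x : ℕ) : Finset Cell :=
  ((Finset.range 1024).filter fun i => x.testBit i = true).image cellOf

theorem mem_cells {x : ℕ} {c : Cell} :
    c ∈ cells x ↔ ∃ i, i < 1024 ∧ x.testBit i = true ∧ cellOf i = c := by
  simp [cells, Finset.mem_image, Finset.mem_filter, Finset.mem_range, and_assoc]

theorem cellOf_mem_cells {x i : ℕ} (hi : i < 1024) (h : x.testBit i = true) :
    cellOf i ∈ cells x := mem_cells.2 ⟨i, hi, h, rfl⟩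

theorem testBit_of_cellOf_mem {x i : ℕ} (h : cellOf i ∈ cells x) : x.testBit i = true := by
  obtain ⟨j, _, hj, he⟩ := mem_cells.1 h
  rwa [cellOf_inj he] at hj

theorem cells_zero : cells 0 = ∅ := by
  ext c; simp [mem_cells]

/-- Bitwise inclusion. -/
def Sub (a b : ℕ) : Prop := ∀ i, a.testBit i = true → b.testBit i = true

theorem Sub.refl (a : ℕ) : Sub a a := fun _ h => h
theorem Sub.trans {a b c : ℕ} (h : Sub a b) (h' : Sub b c) : Sub a c := fun i hi => h' i (h i hi)
theorem Sub.lor_left (a b : ℕ) : Sub a (Nat.lor a b) := fun i hi => by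
  change (a ||| b).testBit i = true
  simp [Nat.testBit_or, hi]
theorem Sub.lor_right (a b : ℕ) : Sub b (Nat.lor a b) := fun i hi => by
  change (a ||| b).testBit i = true
  simp [Nat.testBit_or, hi]

theorem Sub.cells {a b : ℕ} (h : Sub a b) {c : Cell} (hc : c ∈ cells a) : c ∈ cells b := by
  obtain ⟨i, hi, hb, rfl⟩ := mem_cells.1 hc
  exact cellOf_mem_cells hi (h i hb)

theorem testBit_lor (a b i : ℕ) : (Nat.lor a b).testBit i = (a.testBit i || b.testBit i) := by
  change (a ||| b).testBit i = _
  simp [Nat.testBit_or]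

theorem testBit_land (a b i : ℕ) : (Nat.land a b).testBit i = (a.testBit i && b.testBit i) := by
  change (a &&& b).testBit i = _
  simp [Nat.testBit_and]

theorem beq_iff {a b : ℕ} : Nat.beq a b = true ↔ a = b := by
  constructor
  · exact Nat.eq_of_beq_eq_true
  · rintro rfl; exact Nat.beq_refl a

theorem testBit_bit (m i : ℕ) : (Nat.shiftLeft 1 m).testBit i = decide (i = m) := by
  change (1 <<< m).testBit i = _
  rw [Nat.shiftLeft_eq, one_mul, Nat.testBit_two_pow]
  by_cases h : m = i
  · simp [h]
  · have h' : ¬ i = m := fun e => h e.symm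
    simp [h, h']

/-- `Nat.land M (bit m) = 0` says that bit `m` of `M` is clear. -/
theorem clear_of_land {M m : ℕ} (h : Nat.land M (Nat.shiftLeft 1 m) = 0) : M.testBit m = false := by
  have := congrArg (fun x => x.testBit m) h
  simp only [testBit_land, testBit_bit, Nat.zero_testBit] at this
  simpa using this

theorem cells_lor_bit {M m : ℕ} (hm : m < 1024) :
    cells (Nat.lor M (Nat.shiftLeft 1 m)) = insert (cellOf m) (cells M) := by
  ext c
  simp only [Finset.mem_insert, mem_cells, testBit_lor, testBit_bit, Bool.or_eq_true,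
    decide_eq_true_eq]
  constructor
  · rintro ⟨i, hi, h | h, rfl⟩
    · exact Or.inr ⟨i, hi, h, rfl⟩
    · subst h; exact Or.inl rfl
  · rintro (rfl | ⟨i, hi, h, rfl⟩)
    · exact ⟨m, hm, Or.inr rfl, rfl⟩
    · exact ⟨i, hi, Or.inl h, rfl⟩

/-- The semantic statement proved by the checker: Maker can force a copy from the position with
Maker cells `M`, against every Breaker position avoiding `M` and the zone `Z`. -/
def Sem (M Z : ℕ) : Prop :=
  ∃ n, ∀ B : Finset Cell, (∀ c ∈ B, c ∉ cells M ∧ c ∉ cells Z) → MakerForces n (cells M) B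

theorem Sem.mono {M Z Z' : ℕ} (h : Sem M Z) (hs : Sub Z Z') : Sem M Z' := by
  obtain ⟨n, hn⟩ := h
  exact ⟨n, fun B hB => hn B fun c hc => ⟨(hB c hc).1, fun hz => (hB c hc).2 (hs.cells hz)⟩⟩

/-! ### Lines -/

theorem cellOf_add (k o : ℕ) (dx dy : ℕ) (ho : o = dy * 32 + dx) (h : k % 32 + dx < 32) :
    cellOf (k + o) = (((k % 32 : ℕ) : ℤ) + dx, ((k / 32 : ℕ) : ℤ) + dy) := by
  subst ho
  simp only [cellOf, Prod.mk.injEq]
  constructor <;> omega

theorem snaky_image_subset {S : Finset Cell} (a b c d t₁ t₂ : ℤ)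
    (h0 : (a * 0 + b * 0 + t₁, c * 0 + d * 0 + t₂) ∈ S)
    (h1 : (a * 1 + b * 0 + t₁, c * 1 + d * 0 + t₂) ∈ S)
    (h2 : (a * 2 + b * 0 + t₁, c * 2 + d * 0 + t₂) ∈ S)
    (h3 : (a * 3 + b * 0 + t₁, c * 3 + d * 0 + t₂) ∈ S)
    (h4 : (a * 3 + b * 1 + t₁, c * 3 + d * 1 + t₂) ∈ S)
    (h5 : (a * 4 + b * 1 + t₁, c * 4 + d * 1 + t₂) ∈ S) :
    (snaky.image fun p => (a * p.1 + b * p.2 + t₁, c * p.1 + d * p.2 + t₂)) ⊆ S := by
  intro x hx
  simp only [snaky, Finset.mem_image, Finset.mem_insert, Finset.mem_singleton] at hx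
  obtain ⟨p, hp, rfl⟩ := hx
  rcases hp with rfl | rfl | rfl | rfl | rfl | rfl
  · exact h0
  · exact h1
  · exact h2
  · exact h3
  · exact h4
  · exact h5

theorem mem_of_bit {M k : ℕ} (hx : k % 32 ≤ 27) (hy : k / 32 ≤ 27) {dx dy : ℕ} (h4x : dx ≤ 4)
    (h4y : dy ≤ 4) (hb : M.testBit (k + (dy * 32 + dx)) = true) :
    ((((k % 32 : ℕ) : ℤ) + dx, ((k / 32 : ℕ) : ℤ) + dy) : Cell) ∈ cells M := by
  have hlt : k + (dy * 32 + dx) < 1024 := by omega
  have := cellOf_mem_cells hlt hb
  rwa [cellOf_add k _ dx dy rfl (by omega)] at this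

theorem bit_of_line {M k pat o : ℕ}
    (h : Nat.land M (Nat.shiftLeft pat k) = Nat.shiftLeft pat k)
    (ho : pat.testBit o = true) : M.testBit (k + o) = true := by
  have h1 : (Nat.shiftLeft pat k).testBit (k + o) = true := by
    change (pat <<< k).testBit (k + o) = true
    rw [Nat.testBit_shiftLeft]
    simpa using ho
  have h2 := congrArg (fun x => x.testBit (k + o)) h
  simp only [testBit_land, h1, Bool.and_true] at h2
  exact h2

/-- Six cells in `cells M`, with their offsets, form a copy. -/
theorem owns_case {M k : ℕ} (hx : k % 32 ≤ 27) (hy : k / 32 ≤ 27) (pat : ℕ)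
    (h : Nat.land M (Nat.shiftLeft pat k) = Nat.shiftLeft pat k)
    (a b c d tx ty : ℤ) (hsp : IsSignedPerm a b c d)
    (x0 y0 x1 y1 x2 y2 x3 y3 x4 y4 x5 y5 : ℕ)
    (h4 : x0 ≤ 4 ∧ y0 ≤ 4 ∧ x1 ≤ 4 ∧ y1 ≤ 4 ∧ x2 ≤ 4 ∧ y2 ≤ 4 ∧ x3 ≤ 4 ∧ y3 ≤ 4 ∧ x4 ≤ 4 ∧ y4 ≤ 4 ∧
      x5 ≤ 4 ∧ y5 ≤ 4)
    (hb0 : pat.testBit (y0 * 32 + x0) = true) (hb1 : pat.testBit (y1 * 32 + x1) = true)
    (hb2 : pat.testBit (y2 * 32 + x2) = true) (hb3 : pat.testBit (y3 * 32 + x3) = true)
    (hb4 : pat.testBit (y4 * 32 + x4) = true) (hb5 : pat.testBit (y5 * 32 + x5) = true)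
    (e0 : a * 0 + b * 0 + tx = x0 ∧ c * 0 + d * 0 + ty = y0)
    (e1 : a * 1 + b * 0 + tx = x1 ∧ c * 1 + d * 0 + ty = y1)
    (e2 : a * 2 + b * 0 + tx = x2 ∧ c * 2 + d * 0 + ty = y2)
    (e3 : a * 3 + b * 0 + tx = x3 ∧ c * 3 + d * 0 + ty = y3)
    (e4 : a * 3 + b * 1 + tx = x4 ∧ c * 3 + d * 1 + ty = y4)
    (e5 : a * 4 + b * 1 + tx = x5 ∧ c * 4 + d * 1 + ty = y5) :
    OwnsCopy (cells M) := by
  obtain ⟨h40, h41, h42, h43, h44, h45, h46, h47, h48, h49, h410, h411⟩ := h4
  refine ⟨_, ⟨a, b, c, d, ((k % 32 : ℕ) : ℤ) + tx, ((k / 32 : ℕ) : ℤ) + ty, hsp, rfl⟩,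
    snaky_image_subset _ _ _ _ _ _ ?_ ?_ ?_ ?_ ?_ ?_⟩
  · have := mem_of_bit hx hy h40 h41 (bit_of_line h hb0)
    convert this using 2
    · linarith [e0.1]
    · linarith [e0.2]
  · have := mem_of_bit hx hy h42 h43 (bit_of_line h hb1)
    convert this using 2
    · linarith [e1.1]
    · linarith [e1.2]
  · have := mem_of_bit hx hy h44 h45 (bit_of_line h hb2)
    convert this using 2
    · linarith [e2.1]
    · linarith [e2.2]
  · have := mem_of_bit hx hy h46 h47 (bit_of_line h hb3)
    convert this using 2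
    · linarith [e3.1]
    · linarith [e3.2]
  · have := mem_of_bit hx hy h48 h49 (bit_of_line h hb4)
    convert this using 2
    · linarith [e4.1]
    · linarith [e4.2]
  · have := mem_of_bit hx hy h410 h411 (bit_of_line h hb5)
    convert this using 2
    · linarith [e5.1]
    · linarith [e5.2]

theorem okpos_sound {k : ℕ} (h : Nat.land (Nat.shiftRight OKPOS k) 1 = 1) :
    k % 32 ≤ 27 ∧ k / 32 ≤ 27 := by
  have hlt : k < 1024 := by
    by_contra hk
    have hk' : 1024 ≤ k := by omega
    have h0 : OKPOS < 2 ^ k :=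
      lt_of_lt_of_le (by decide +kernel) (Nat.pow_le_pow_right (by norm_num) hk')
    have h1 : Nat.shiftRight OKPOS k = 0 := by
      change OKPOS >>> k = 0
      rw [Nat.shiftRight_eq_div_pow]
      exact Nat.div_eq_of_lt h0
    rw [h1] at h
    exact absurd h (by decide)
  have key : ∀ k, k < 1024 → Nat.land (Nat.shiftRight OKPOS k) 1 = 1 →
      (k % 32 ≤ 27 ∧ k / 32 ≤ 27) := by decide +kernel
  exact key k hlt h

theorem patOf_lt (x : ℕ) : Nat.land x 7 < 8 :=
  Nat.lt_succ_of_le (Nat.and_le_right (n := x) (m := 7))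

theorem field_lt (x : ℕ) : Nat.land x 1023 < 1024 :=
  Nat.lt_succ_of_le (Nat.and_le_right (n := x) (m := 1023))

/-- The line check of the certificate gives an owned copy. -/
theorem lineOK_sound {M k g : ℕ} (hg : g < 8) (h : lineOK M k g = true) : OwnsCopy (cells M) := by
  unfold lineOK at h
  dsimp only at h
  cases hb : Nat.beq (Nat.land (Nat.shiftRight OKPOS k) 1) 1 with
  | false => rw [hb] at h; cases h
  | true =>
    rw [hb] at h
    obtain ⟨hx, hy⟩ := okpos_sound (beq_iff.1 hb)
    have hL := beq_iff.1 h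
    interval_cases g
    · have hp : Nat.land (Nat.shiftRight PATS (Nat.mul 0 136)) 87112285931760246646623899502532662132735 = 103079215119 := by
        decide +kernel
      rw [hp] at hL
      exact owns_case hx hy 103079215119 hL 1 0 0 1 0 0
        (Or.inl ⟨Or.inl rfl, rfl, rfl, Or.inl rfl⟩) 0 0 1 0 2 0 3 0 3 1 4 1 (by norm_num)
        (by decide) (by decide) (by decide) (by decide) (by decide) (by decide)
        (by norm_num) (by norm_num) (by norm_num) (by norm_num) (by norm_num) (by norm_num)
    · have hp : Nat.land (Nat.shiftRight PATS (Nat.mul 1 136)) 87112285931760246646623899502532662132735 = 12884901918 := by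
        decide +kernel
      rw [hp] at hL
      exact owns_case hx hy 12884901918 hL (-1) 0 0 1 4 0
        (Or.inl ⟨Or.inr rfl, rfl, rfl, Or.inl rfl⟩) 4 0 3 0 2 0 1 0 1 1 0 1 (by norm_num)
        (by decide) (by decide) (by decide) (by decide) (by decide) (by decide)
        (by norm_num) (by norm_num) (by norm_num) (by norm_num) (by norm_num) (by norm_num)
    · have hp : Nat.land (Nat.shiftRight PATS (Nat.mul 2 136)) 87112285931760246646623899502532662132735 = 64424509464 := by
        decide +kernel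
      rw [hp] at hL
      exact owns_case hx hy 64424509464 hL 1 0 0 (-1) 0 1
        (Or.inl ⟨Or.inl rfl, rfl, rfl, Or.inr rfl⟩) 0 1 1 1 2 1 3 1 3 0 4 0 (by norm_num)
        (by decide) (by decide) (by decide) (by decide) (by decide) (by decide)
        (by norm_num) (by norm_num) (by norm_num) (by norm_num) (by norm_num) (by norm_num)
    · have hp : Nat.land (Nat.shiftRight PATS (Nat.mul 3 136)) 87112285931760246646623899502532662132735 = 128849018883 := by
        decide +kernel
      rw [hp] at hL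
      exact owns_case hx hy 128849018883 hL (-1) 0 0 (-1) 4 1
        (Or.inl ⟨Or.inr rfl, rfl, rfl, Or.inr rfl⟩) 4 1 3 1 2 1 1 1 1 0 0 0 (by norm_num)
        (by decide) (by decide) (by decide) (by decide) (by decide) (by decide)
        (by norm_num) (by norm_num) (by norm_num) (by norm_num) (by norm_num) (by norm_num)
    · have hp : Nat.land (Nat.shiftRight PATS (Nat.mul 4 136)) 87112285931760246646623899502532662132735 = 680564734079561414487988971722172792833 := by
        decide +kernel
      rw [hp] at hL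
      exact owns_case hx hy 680564734079561414487988971722172792833 hL 0 1 1 0 0 0
        (Or.inr ⟨rfl, Or.inl rfl, Or.inl rfl, rfl⟩) 0 0 0 1 0 2 0 3 1 3 1 4 (by norm_num)
        (by decide) (by decide) (by decide) (by decide) (by decide) (by decide)
        (by norm_num) (by norm_num) (by norm_num) (by norm_num) (by norm_num) (by norm_num)
    · have hp : Nat.land (Nat.shiftRight PATS (Nat.mul 5 136)) 87112285931760246646623899502532662132735 = 340282367158622951043061108368409100290 := by
        decide +kernel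
      rw [hp] at hL
      exact owns_case hx hy 340282367158622951043061108368409100290 hL 0 (-1) 1 0 1 0
        (Or.inr ⟨rfl, Or.inr rfl, Or.inl rfl, rfl⟩) 1 0 1 1 1 2 1 3 0 3 0 4 (by norm_num)
        (by decide) (by decide) (by decide) (by decide) (by decide) (by decide)
        (by norm_num) (by norm_num) (by norm_num) (by norm_num) (by norm_num) (by norm_num)
    · have hp : Nat.land (Nat.shiftRight PATS (Nat.mul 6 136)) 87112285931760246646623899502532662132735 = 340282367000166625996085689111906615298 := by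
        decide +kernel
      rw [hp] at hL
      exact owns_case hx hy 340282367000166625996085689111906615298 hL 0 1 (-1) 0 0 4
        (Or.inr ⟨rfl, Or.inl rfl, Or.inr rfl, rfl⟩) 0 4 0 3 0 2 0 1 1 1 1 0 (by norm_num)
        (by decide) (by decide) (by decide) (by decide) (by decide) (by decide)
        (by norm_num) (by norm_num) (by norm_num) (by norm_num) (by norm_num) (by norm_num)
    · have hp : Nat.land (Nat.shiftRight PATS (Nat.mul 7 136)) 87112285931760246646623899502532662132735 = 680564734000333251992171378210928328705 := by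
        decide +kernel
      rw [hp] at hL
      exact owns_case hx hy 680564734000333251992171378210928328705 hL 0 (-1) (-1) 0 1 4
        (Or.inr ⟨rfl, Or.inr rfl, Or.inr rfl, rfl⟩) 1 4 1 3 1 2 1 1 0 1 0 0 (by norm_num)
        (by decide) (by decide) (by decide) (by decide) (by decide) (by decide)
        (by norm_num) (by norm_num) (by norm_num) (by norm_num) (by norm_num) (by norm_num)

/-! ### Semantic rules -/

/-- Version of `Sem` with a fixed bound. -/
def SemN (n M Z : ℕ) : Prop :=
  ∀ B : Finset Cell, (∀ c ∈ B, c ∉ cells M ∧ c ∉ cells Z) → MakerForces n (cells M) B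

theorem SemN.mono {n n' M Z : ℕ} (hn : n ≤ n') (h : SemN n M Z) : SemN n' M Z :=
  fun B hB => (h B hB).mono hn

theorem Sem.ofN {n M Z : ℕ} (h : SemN n M Z) : Sem M Z := ⟨n, h⟩

theorem sem_finish {M b : ℕ} (hb : b < 1024) (hc : M.testBit b = false)
    (hown : OwnsCopy (cells (Nat.lor M (Nat.shiftLeft 1 b)))) : Sem M (Nat.shiftLeft 1 b) := by
  refine ⟨1, fun B hB => Or.inr ⟨cellOf b, ?_, ?_, ?_⟩⟩
  · intro h
    have := testBit_of_cellOf_mem h
    rw [hc] at this
    cases this
  · intro h
    exact (hB _ h).2 (cellOf_mem_cells hb (by simp [testBit_bit]))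
  · intro r _ _
    rw [← cells_lor_bit hb]
    exact hown

theorem sem_forced {M m a Zc : ℕ} (hm : m < 1024) (ha : a < 1024)
    (hcm : M.testBit m = false) (hca : M.testBit a = false) (hne : m ≠ a)
    (hown : OwnsCopy (cells (Nat.lor (Nat.lor M (Nat.shiftLeft 1 m)) (Nat.shiftLeft 1 a))))
    (hz : Zc.testBit a = false)
    (hsem : Sem (Nat.lor M (Nat.shiftLeft 1 m)) Zc) :
    Sem M (Nat.lor Zc (Nat.lor (Nat.shiftLeft 1 m) (Nat.shiftLeft 1 a))) := by
  obtain ⟨n, hn⟩ := hsem
  set M1 := Nat.lor M (Nat.shiftLeft 1 m) with hM1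
  set Z := Nat.lor Zc (Nat.lor (Nat.shiftLeft 1 m) (Nat.shiftLeft 1 a)) with hZ
  have hcells : cells M1 = insert (cellOf m) (cells M) := cells_lor_bit hm
  refine ⟨max n 1 + 1, fun B hB => Or.inr ⟨cellOf m, ?_, ?_, ?_⟩⟩
  · intro h
    have := testBit_of_cellOf_mem h
    rw [hcm] at this
    cases this
  · intro h
    refine (hB _ h).2 (cellOf_mem_cells hm ?_)
    simp [hZ, testBit_lor, testBit_bit]
  · intro r hr hrB
    rw [← hcells]
    have hmZ : cellOf m ∈ cells Z := cellOf_mem_cells hm (by simp [hZ, testBit_lor, testBit_bit])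
    have haZ : cellOf a ∈ cells Z := cellOf_mem_cells ha (by simp [hZ, testBit_lor, testBit_bit])
    by_cases hra : r = cellOf a
    · subst hra
      refine (hn _ ?_).mono (le_trans (le_max_left _ _) (le_refl _))
      intro c hc
      rcases Finset.mem_insert.1 hc with rfl | hcB
      · refine ⟨by rw [hcells]; exact hr, ?_⟩
        intro h
        have := testBit_of_cellOf_mem h
        rw [hz] at this
        cases this
      · refine ⟨?_, ?_⟩
        · rw [hcells]
          intro h
          rcases Finset.mem_insert.1 h with rfl | h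
          · exact (hB _ hcB).2 hmZ
          · exact (hB _ hcB).1 h
        · intro h
          exact (hB _ hcB).2 ((Sub.lor_left _ _).cells h)
    · have hN : max n 1 = (max n 1 - 1) + 1 := by omega
      rw [hN]
      refine Or.inr ⟨cellOf a, ?_, ?_, ?_⟩
      · rw [hcells]
        intro h
        rcases Finset.mem_insert.1 h with h | h
        · exact hne (cellOf_inj h).symm
        · have := testBit_of_cellOf_mem h
          rw [hca] at this
          cases this
      · intro h
        rcases Finset.mem_insert.1 h with h | h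
        · exact hra h.symm
        · exact (hB _ h).2 haZ
      · intro r2 _ _
        refine MakerForces.of_owns ?_ _
        rw [← cells_lor_bit ha]
        exact hown

theorem sem_move {M m Z0 Zf : ℕ} (hm : m < 1024) (hcm : M.testBit m = false)
    (h0 : Sem (Nat.lor M (Nat.shiftLeft 1 m)) Z0) (hsub : Sub Z0 Zf)
    (hkids : ∃ n, ∀ i, Z0.testBit i = true →
      ∃ Zi, SemN n (Nat.lor M (Nat.shiftLeft 1 m)) Zi ∧ Zi.testBit i = false ∧ Sub Zi Zf) :
    Sem M (Nat.lor Zf (Nat.shiftLeft 1 m)) := by
  obtain ⟨n0, hn0⟩ := h0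
  obtain ⟨n1, hn1⟩ := hkids
  set M1 := Nat.lor M (Nat.shiftLeft 1 m) with hM1
  set Z := Nat.lor Zf (Nat.shiftLeft 1 m) with hZ
  have hcells : cells M1 = insert (cellOf m) (cells M) := cells_lor_bit hm
  have hZf : Sub Zf Z := Sub.lor_left _ _
  refine ⟨max n0 n1 + 1, fun B hB => Or.inr ⟨cellOf m, ?_, ?_, ?_⟩⟩
  · intro h
    have := testBit_of_cellOf_mem h
    rw [hcm] at this
    cases this
  · intro h
    exact (hB _ h).2 (cellOf_mem_cells hm ((Sub.lor_right _ _) m (by simp [testBit_bit])))
  · intro r hr hrB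
    rw [← hcells]
    have hmZ : cellOf m ∈ cells Z :=
      cellOf_mem_cells hm ((Sub.lor_right _ _) m (by simp [testBit_bit]))
    have hsafe : ∀ c ∈ B, c ∉ cells M1 := by
      intro c hc
      rw [hcells]
      intro h
      rcases Finset.mem_insert.1 h with rfl | h
      · exact (hB _ hc).2 hmZ
      · exact (hB _ hc).1 h
    by_cases hr0 : r ∈ cells Z0
    · obtain ⟨i, _, hi, rfl⟩ := mem_cells.1 hr0
      obtain ⟨Zi, hZi, hbi, hsi⟩ := hn1 i hi
      refine (hZi _ ?_).mono (le_max_right _ _)
      intro c hc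
      rcases Finset.mem_insert.1 hc with rfl | hcB
      · refine ⟨by rw [hcells]; exact hr, ?_⟩
        intro h
        have := testBit_of_cellOf_mem h
        rw [hbi] at this
        cases this
      · exact ⟨hsafe c hcB, fun h => (hB _ hcB).2 (hZf.cells (hsi.cells h))⟩
    · refine (hn0 _ ?_).mono (le_max_left _ _)
      intro c hc
      rcases Finset.mem_insert.1 hc with rfl | hcB
      · exact ⟨by rw [hcells]; exact hr, hr0⟩
      · exact ⟨hsafe c hcB, fun h => (hB _ hcB).2 (hZf.cells (hsub.cells h))⟩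

/-! ### Soundness of the checker -/

theorem rec_false {c X : Bool} (h : (Bool.rec (motive := fun _ => Bool) false X c) = true) :
    c = true ∧ X = true := by
  cases c
  · cases h
  · exact ⟨rfl, h⟩

theorem kids_sound {ih : ℕ → ℕ → (ℕ → ℕ → Bool) → Bool}
    (hih : ∀ M s κ, ih M s κ = true → ∃ Z s', Sem M Z ∧ κ Z s' = true) :
    ∀ (kf M R Zacc s : ℕ) (κ : ℕ → ℕ → Bool), kids ih kf M R Zacc s κ = true →
      ∃ Zf s', κ Zf s' = true ∧ Sub Zacc Zf ∧ ∃ n, ∀ i, R.testBit i = true →
        ∃ Zi, SemN n M Zi ∧ Zi.testBit i = false ∧ Sub Zi Zf := by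
  intro kf
  induction kf with
  | zero =>
    intro M R Zacc s κ h
    change (Bool.rec (motive := fun _ => Bool) false (κ Zacc s) (Nat.beq R 0)) = true at h
    obtain ⟨h0, h1⟩ := rec_false h
    have hR : R = 0 := beq_iff.1 h0
    refine ⟨Zacc, s, h1, Sub.refl _, 0, ?_⟩
    intro i hi
    rw [hR] at hi
    simp at hi
  | succ kf ihk =>
    intro M R Zacc s κ h
    change (Bool.rec (motive := fun _ => Bool)
      (ih M s fun Zi s' => kids ih kf M (Nat.land R Zi) (Nat.lor Zacc Zi) s' κ)
      (κ Zacc s) (Nat.beq R 0)) = true at h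
    cases hb : Nat.beq R 0 with
    | true =>
      rw [hb] at h
      have hR : R = 0 := beq_iff.1 hb
      refine ⟨Zacc, s, h, Sub.refl _, 0, ?_⟩
      intro i hi
      rw [hR] at hi
      simp at hi
    | false =>
      rw [hb] at h
      obtain ⟨Zi, s', ⟨ni, hni⟩, hrec⟩ := hih _ _ _ h
      obtain ⟨Zf, s'', hκ, hsub, n, hn⟩ := ihk _ _ _ _ _ hrec
      refine ⟨Zf, s'', hκ, (Sub.lor_left _ _).trans hsub, max n ni, ?_⟩
      intro i hi
      cases hzi : Zi.testBit i with
      | false =>
        exact ⟨Zi, SemN.mono (le_max_right _ _) hni, hzi, (Sub.lor_right _ _).trans hsub⟩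
      | true =>
        obtain ⟨Zj, h1, h2, h3⟩ := hn i (by simp [testBit_land, hi, hzi])
        exact ⟨Zj, h1.mono (le_max_left _ _), h2, h3⟩

/-- A table row is valid if its position and zone satisfy `Sem`. -/
def RowValid (r : BT) : Prop :=
  BT.rec (motive := fun _ => Prop) (fun M Z => Sem M Z) (fun _ _ _ _ => True) r

theorem lt_of_ble {a b : ℕ} (h : Nat.ble (Nat.succ a) b = true) : a < b :=
  Nat.le_of_ble_eq_true h

theorem stepRun_sound {K : ℕ} {tbl : BT} (hK : ∀ j, j < K → RowValid (find tbl j))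
    {ih : ℕ → ℕ → (ℕ → ℕ → Bool) → Bool}
    (hih : ∀ M s κ, ih M s κ = true → ∃ Z s', Sem M Z ∧ κ Z s' = true)
    (M s : ℕ) (κ : ℕ → ℕ → Bool) (h : stepRun K tbl ih M s κ = true) :
    ∃ Z s', Sem M Z ∧ κ Z s' = true := by
  unfold stepRun at h
  cases h1 : Nat.beq (Nat.land s 1) 1 with
  | false =>
    rw [h1] at h
    cases h2 : Nat.beq (Nat.land s 2) 0 with
    | false =>
      -- finish
      rw [h2] at h
      dsimp only at h
      obtain ⟨hclear, h'⟩ := rec_false h
      obtain ⟨hline, hκ⟩ := rec_false h'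
      have hb := field_lt (Nat.shiftRight s 2)
      refine ⟨_, _, ?_, hκ⟩
      refine sem_finish hb ?_ ?_
      · exact clear_of_land (beq_iff.1 (by simpa using hclear))
      · exact lineOK_sound (patOf_lt _) hline
    | true =>
      -- move
      rw [h2] at h
      dsimp only at h
      obtain ⟨hclear, h'⟩ := rec_false h
      have hb := field_lt (Nat.shiftRight s 2)
      obtain ⟨Z0, s2, hsem0, hk⟩ := hih _ _ _ h'
      obtain ⟨Zf, s3, hκ, hsub, hkids⟩ := kids_sound hih _ _ _ _ _ _ hk
      exact ⟨_, _, sem_move hb (clear_of_land (beq_iff.1 (by simpa using hclear))) hsem0 hsub hkids,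
        hκ⟩
  | true =>
    rw [h1] at h
    cases h2 : Nat.beq (Nat.land s 2) 0 with
    | false =>
      -- forced
      rw [h2] at h
      dsimp only at h
      obtain ⟨hclear, h'⟩ := rec_false h
      obtain ⟨hne, hclear2⟩ := rec_false hclear
      obtain ⟨hline, hcont⟩ := rec_false h'
      obtain ⟨Zc, s2, hsem, hk⟩ := hih _ _ _ hcont
      obtain ⟨hz, hκ⟩ := rec_false hk
      have hm := field_lt (Nat.shiftRight s 2)
      have ha := field_lt (Nat.shiftRight s 12)
      refine ⟨_, _, ?_, hκ⟩
      have hclr := beq_iff.1 hclear2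
      have hne' := beq_iff.1 hne
      set m := Nat.land (Nat.shiftRight s 2) 1023 with hmdef
      set a := Nat.land (Nat.shiftRight s 12) 1023 with hadef
      refine sem_forced hm ha ?_ ?_ ?_ (lineOK_sound (patOf_lt _) hline) (clear_of_land (beq_iff.1 hz)) hsem
      · have := congrArg (fun x => x.testBit m) hclr
        simp only [testBit_land, testBit_lor, testBit_bit, Nat.zero_testBit] at this
        simpa using this
      · have := congrArg (fun x => x.testBit a) hclr
        simp only [testBit_land, testBit_lor, testBit_bit, Nat.zero_testBit] at this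
        simpa using this
      · intro he
        have := congrArg (fun x => x.testBit a) hne'
        simp only [testBit_land, testBit_bit, Nat.zero_testBit] at this
        simp [he] at this
    | true =>
      -- ref
      rw [h2] at h
      dsimp only at h
      obtain ⟨hlt, h'⟩ := rec_false h
      have hv := hK _ (lt_of_ble hlt)
      revert hv h'
      generalize find tbl (Nat.land (Nat.shiftRight s 2) 1048575) = r
      cases r with
      | leaf Mj Zj =>
        intro h' hv
        obtain ⟨hM, hκ⟩ := rec_false h'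
        have : Mj = M := beq_iff.1 hM
        subst this
        exact ⟨Zj, _, hv, hκ⟩
      | node l r =>
        intro h' _
        cases h'

theorem run_sound {K : ℕ} {tbl : BT} (hK : ∀ j, j < K → RowValid (find tbl j)) :
    ∀ (fuel M s : ℕ) (κ : ℕ → ℕ → Bool), run K tbl fuel M s κ = true →
      ∃ Z s', Sem M Z ∧ κ Z s' = true := by
  intro fuel
  induction fuel with
  | zero =>
    intro M s κ h
    cases h
  | succ f ih =>
    intro M s κ h
    exact stepRun_sound hK ih M s κ h

theorem row_sound {tbl : BT} {k s : ℕ} (hK : ∀ j, j < k → RowValid (find tbl j))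
    (h : rowOK tbl k s = true) : RowValid (find tbl k) := by
  unfold rowOK at h
  revert h
  generalize find tbl k = r
  cases r with
  | leaf M Z =>
    intro h
    obtain ⟨Z', s', hsem, hb⟩ := run_sound hK _ _ _ _ h
    refine Sem.mono hsem ?_
    have he : Nat.lor Z' Z = Z := beq_iff.1 hb
    intro i hi
    rw [← he]
    exact (Sub.lor_left _ _) i hi
  | node l r =>
    intro h
    cases h

/-- Row `k` has some certificate stream. -/
def Good (tbl : BT) (k : ℕ) : Prop := ∃ s, rowOK tbl k s = true

theorem chunk_good {tbl : BT} (ss : List ℕ) : ∀ k, chunkOK tbl k ss = true →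
    ∀ j, k ≤ j → j < k + ss.length → Good tbl j := by
  induction ss with
  | nil =>
    intro k _ j h1 h2
    simp at h2
    omega
  | cons s ss ih =>
    intro k h j h1 h2
    change (Bool.rec (motive := fun _ => Bool) false (chunkOK tbl (Nat.succ k) ss)
      (rowOK tbl k s)) = true at h
    obtain ⟨h3, h4⟩ := rec_false h
    by_cases hj : j = k
    · subst hj
      exact ⟨s, h3⟩
    · refine ih _ h4 j (by omega) ?_
      simp at h2
      omega

theorem rows_valid {tbl : BT} {K : ℕ} (h : ∀ j, j < K → Good tbl j) :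
    ∀ j, j < K → RowValid (find tbl j) := by
  intro j
  induction j using Nat.strong_induction_on with
  | _ j ih =>
    intro hj
    obtain ⟨s, hs⟩ := h j hj
    exact row_sound (fun i hi => ih i hi (by omega)) hs

end Vale.Agent.Lib.P062
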