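import Mathlib
import Vale.Agent.Lib.P062.Sound

set_option linter.unusedSimpArgs false

namespace Vale.Agent.Lib.P062

open Chk

/-! ### Symmetries of the game -/

theorem IsSignedPerm.mul {a b c d a' b' c' d' : ℤ} (h : IsSignedPerm a b c d)
    (h' : IsSignedPerm a' b' c' d') :
    IsSignedPerm (a * a' + b * c') (a * b' + b * d') (c * a' + d * c') (c * b' + d * d') := by
  unfold IsSignedPerm at *
  rcases h with ⟨h1 | h1, rfl, rfl, h2 | h2⟩ | ⟨rfl, h1 | h1, h2 | h2, rfl⟩ <;>
    rcases h' with ⟨h3 | h3, rfl, rfl, h4 | h4⟩ | ⟨rfl, h3 | h3, h4 | h4, rfl⟩ <;>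
    subst_vars <;> norm_num

/-- A map of the plane given by a signed permutation matrix and a translation preserves copies. -/
theorem map_copy (σ : Cell ≃ Cell) (a b c d t₁ t₂ : ℤ) (hsp : IsSignedPerm a b c d)
    (hσ : ∀ p : Cell, σ p = (a * p.1 + b * p.2 + t₁, c * p.1 + d * p.2 + t₂))
    {C : Finset Cell} (hC : IsAllowedCopy C) : IsAllowedCopy (C.map σ.toEmbedding) := by
  obtain ⟨a', b', c', d', s₁, s₂, hsp', rfl⟩ := hC
  refine ⟨_, _, _, _, a * s₁ + b * s₂ + t₁, c * s₁ + d * s₂ + t₂, hsp.mul hsp', ?_⟩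
  ext x
  simp only [Finset.mem_map, Finset.mem_image, Equiv.coe_toEmbedding]
  constructor
  · rintro ⟨_, ⟨p, hp, rfl⟩, rfl⟩
    refine ⟨p, hp, ?_⟩
    rw [hσ]
    simp only [Prod.mk.injEq]
    constructor <;> ring
  · rintro ⟨p, hp, rfl⟩
    refine ⟨_, ⟨p, hp, rfl⟩, ?_⟩
    rw [hσ]
    simp only [Prod.mk.injEq]
    constructor <;> ring

theorem forces_map (σ : Cell ≃ Cell)
    (hσ : ∀ C, IsAllowedCopy C → IsAllowedCopy (C.map σ.toEmbedding)) :
    ∀ (n : ℕ) (M B : Finset Cell), MakerForces n M B →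
      MakerForces n (M.map σ.toEmbedding) (B.map σ.toEmbedding) := by
  have hown : ∀ M : Finset Cell, OwnsCopy M → OwnsCopy (M.map σ.toEmbedding) := by
    rintro M ⟨C, hC, hs⟩
    exact ⟨_, hσ C hC, Finset.map_subset_map.2 hs⟩
  intro n
  induction n with
  | zero =>
    intro M B h
    exact hown M h
  | succ n ih =>
    intro M B h
    rcases h with h | ⟨m, h1, h2, h3⟩
    · exact Or.inl (hown M h)
    · refine Or.inr ⟨σ m, ?_, ?_, ?_⟩
      · simpa using h1
      · simpa using h2
      · intro b hb hb'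
        have hb1 : σ.symm b ∉ insert m M := by
          intro h
          apply hb
          rcases Finset.mem_insert.1 h with h | h
          · exact Finset.mem_insert.2 (Or.inl (by simpa using congrArg σ h))
          · refine Finset.mem_insert.2 (Or.inr ?_)
            simp only [Finset.mem_map, Equiv.coe_toEmbedding]
            exact ⟨_, h, by simp⟩
        have hb2 : σ.symm b ∉ B := by
          intro h
          apply hb'
          simp only [Finset.mem_map, Equiv.coe_toEmbedding]
          exact ⟨_, h, by simp⟩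
        have := ih _ _ (h3 _ hb1 hb2)
        rw [Finset.map_insert, Finset.map_insert] at this
        simpa using this

/-- The reflection `x ↦ 26 - x`. -/
def rX : Cell ≃ Cell where
  toFun p := (26 - p.1, p.2)
  invFun p := (26 - p.1, p.2)
  left_inv p := by simp
  right_inv p := by simp

/-- The reflection `y ↦ 26 - y`. -/
def rY : Cell ≃ Cell where
  toFun p := (p.1, 26 - p.2)
  invFun p := (p.1, 26 - p.2)
  left_inv p := by simp
  right_inv p := by simp

/-- The diagonal reflection. -/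
def sw : Cell ≃ Cell where
  toFun p := (p.2, p.1)
  invFun p := (p.2, p.1)
  left_inv p := by simp
  right_inv p := by simp

/-- The translation by `(-13, -13)`. -/
def tr : Cell ≃ Cell where
  toFun p := (p.1 - 13, p.2 - 13)
  invFun p := (p.1 + 13, p.2 + 13)
  left_inv p := by simp
  right_inv p := by simp

theorem rX_copy (C : Finset Cell) (h : IsAllowedCopy C) : IsAllowedCopy (C.map rX.toEmbedding) :=
  map_copy rX (-1) 0 0 1 26 0 (Or.inl ⟨Or.inr rfl, rfl, rfl, Or.inl rfl⟩)
    (fun p => by simp [rX]; ring) h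

theorem rY_copy (C : Finset Cell) (h : IsAllowedCopy C) : IsAllowedCopy (C.map rY.toEmbedding) :=
  map_copy rY 1 0 0 (-1) 0 26 (Or.inl ⟨Or.inl rfl, rfl, rfl, Or.inr rfl⟩)
    (fun p => by simp [rY]; ring) h

theorem sw_copy (C : Finset Cell) (h : IsAllowedCopy C) : IsAllowedCopy (C.map sw.toEmbedding) :=
  map_copy sw 0 1 1 0 0 0 (Or.inr ⟨rfl, Or.inl rfl, Or.inl rfl, rfl⟩)
    (fun p => by simp [sw]) h

theorem tr_copy (C : Finset Cell) (h : IsAllowedCopy C) : IsAllowedCopy (C.map tr.toEmbedding) :=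
  map_copy tr 1 0 0 1 (-13) (-13) (Or.inl ⟨Or.inl rfl, rfl, rfl, Or.inl rfl⟩)
    (fun p => by simp [tr, sub_eq_add_neg]) h

/-- The centre of the certificate window. -/
def c0 : Cell := (13, 13)

theorem force_rX {n : ℕ} {x y : ℤ} (h : MakerForces n {c0} {(26 - x, y)}) :
    MakerForces n {c0} {(x, y)} := by
  have := forces_map rX rX_copy n _ _ h
  simpa [rX, c0] using this

theorem force_rY {n : ℕ} {x y : ℤ} (h : MakerForces n {c0} {(x, 26 - y)}) :
    MakerForces n {c0} {(x, y)} := by
  have := forces_map rY rY_copy n _ _ h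
  simpa [rY, c0] using this

theorem force_sw {n : ℕ} {x y : ℤ} (h : MakerForces n {c0} {(y, x)}) :
    MakerForces n {c0} {(x, y)} := by
  have := forces_map sw sw_copy n _ _ h
  simpa [sw, c0] using this

/-- Reduction of an arbitrary first reply to one with `13 ≤ y` and `y ≤ x`. -/
theorem force_canon {n : ℕ} {x y : ℤ}
    (h : MakerForces n {c0}
      {((13 + max |x - 13| |y - 13| : ℤ), (13 + min |x - 13| |y - 13| : ℤ))}) :
    MakerForces n {c0} {(x, y)} := by
  have step1 : MakerForces n {c0} {(13 + |x - 13|, 13 + |y - 13|)} →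
      MakerForces n {c0} {(x, y)} := by
    intro h1
    have h2 : MakerForces n {c0} {(x, 13 + |y - 13|)} := by
      rcases le_total 13 x with hx | hx
      · have : 13 + |x - 13| = x := by rw [abs_of_nonneg (by omega)]; omega
        rwa [this] at h1
      · have : 13 + |x - 13| = 26 - x := by rw [abs_of_nonpos (by omega)]; omega
        rw [this] at h1
        exact force_rX h1
    rcases le_total 13 y with hy | hy
    · have : 13 + |y - 13| = y := by rw [abs_of_nonneg (by omega)]; omega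
      rwa [this] at h2
    · have : 13 + |y - 13| = 26 - y := by rw [abs_of_nonpos (by omega)]; omega
      rw [this] at h2
      exact force_rY h2
  apply step1
  rcases le_total |x - 13| |y - 13| with hle | hle
  · rw [max_eq_right hle, min_eq_left hle] at h
    exact force_sw h
  · rw [max_eq_left hle, min_eq_right hle] at h
    exact h

/-- Mask with the single cell `c0`. -/
def MO : ℕ := Nat.shiftLeft 1 429

theorem cells_MO : cells MO = {c0} := by
  have h := cells_lor_bit (M := 0) (m := 429) (by norm_num)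
  have h0 : Nat.lor 0 (Nat.shiftLeft 1 429) = MO := by decide +kernel
  rw [h0, cells_zero] at h
  rw [h]
  have : cellOf 429 = c0 := by simp [cellOf, c0]
  rw [this]
  rfl

/-- The coordinates of a reply cell from its bit index. -/
def px (i : ℕ) : ℕ := max (if 13 ≤ i % 32 then i % 32 - 13 else 13 - i % 32)
  (if 13 ≤ i / 32 then i / 32 - 13 else 13 - i / 32)

def qx (i : ℕ) : ℕ := min (if 13 ≤ i % 32 then i % 32 - 13 else 13 - i % 32)
  (if 13 ≤ i / 32 then i / 32 - 13 else 13 - i / 32)

theorem abs_sub13 (a : ℕ) : |((a : ℕ) : ℤ) - 13| = ((if 13 ≤ a then a - 13 else 13 - a : ℕ) : ℤ) := by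
  split_ifs with h
  · rw [abs_of_nonneg (by omega)]; omega
  · rw [abs_of_nonpos (by omega)]; omega

theorem force_of_task {n i : ℕ}
    (h : MakerForces n {c0} {((13 + (px i : ℕ) : ℤ), (13 + (qx i : ℕ) : ℤ))}) :
    MakerForces n {c0} {cellOf i} := by
  apply force_canon
  rw [abs_sub13, abs_sub13]
  have h1 : (px i : ℤ) = max ((if 13 ≤ i % 32 then i % 32 - 13 else 13 - i % 32 : ℕ) : ℤ)
      ((if 13 ≤ i / 32 then i / 32 - 13 else 13 - i / 32 : ℕ) : ℤ) := by
    simp only [px]
    rw [Nat.cast_max]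
  have h2 : (qx i : ℤ) = min ((if 13 ≤ i % 32 then i % 32 - 13 else 13 - i % 32 : ℕ) : ℤ)
      ((if 13 ≤ i / 32 then i / 32 - 13 else 13 - i / 32 : ℕ) : ℤ) := by
    simp only [qx]
    rw [Nat.cast_min]
  rw [← h1, ← h2]
  exact h

/-- The rows of the table that solve a first reply: `(p, q, j)` with row `j`. -/
noncomputable def taskOK (tbl : BT) (t : ℕ × ℕ × ℕ) : Bool :=
  BT.rec (motive := fun _ => Bool)
    (fun M Z =>
      Bool.rec false (Nat.beq (Nat.land Z (Nat.shiftLeft 1 ((13 + t.2.1) * 32 + (13 + t.1))))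
        0) (Nat.beq M MO))
    (fun _ _ _ _ => false) (find tbl t.2.2)

theorem task_forces {tbl : BT} {t : ℕ × ℕ × ℕ} (hv : RowValid (find tbl t.2.2))
    (ht : taskOK tbl t = true) (h13 : t.1 ≤ 18) (hq : t.2.1 ≤ 18) (hne : t.1 ≠ 0 ∨ t.2.1 ≠ 0) :
    ∃ n, MakerForces n {c0} {((13 + (t.1 : ℕ) : ℤ), (13 + (t.2.1 : ℕ) : ℤ))} := by
  unfold taskOK at ht
  revert hv ht
  generalize find tbl t.2.2 = r
  cases r with
  | leaf M Z =>
    intro hv ht
    obtain ⟨hM, hZ⟩ := rec_false ht
    obtain ⟨n, hn⟩ := hv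
    have hM' : M = MO := beq_iff.1 hM
    subst hM'
    refine ⟨n, ?_⟩
    have := hn {((13 + (t.1 : ℕ) : ℤ), (13 + (t.2.1 : ℕ) : ℤ))} ?_
    · rwa [cells_MO] at this
    · intro c hc
      rw [Finset.mem_singleton] at hc
      subst hc
      rw [cells_MO]
      refine ⟨?_, ?_⟩
      · rw [Finset.mem_singleton]
        simp only [c0, Prod.mk.injEq]
        omega
      · set idx := (13 + t.2.1) * 32 + (13 + t.1) with hidx
        have hc : ((13 + (t.1 : ℕ) : ℤ), (13 + (t.2.1 : ℕ) : ℤ)) = cellOf idx := by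
          simp only [cellOf, Prod.mk.injEq]
          constructor <;> omega
        rw [hc]
        intro h
        have := testBit_of_cellOf_mem h
        rw [clear_of_land (beq_iff.1 hZ)] at this
        cases this
  | node l r =>
    intro _ ht
    cases ht

/-- Uniform bound over a finite list of first replies. -/
theorem tasks_uniform {tbl : BT} (L : List (ℕ × ℕ × ℕ))
    (hL : ∀ t ∈ L, RowValid (find tbl t.2.2) ∧ taskOK tbl t = true ∧ t.1 ≤ 18 ∧ t.2.1 ≤ 18 ∧
      (t.1 ≠ 0 ∨ t.2.1 ≠ 0)) :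
    ∃ N, ∀ t ∈ L, MakerForces N {c0} {((13 + (t.1 : ℕ) : ℤ), (13 + (t.2.1 : ℕ) : ℤ))} := by
  induction L with
  | nil => exact ⟨0, fun t ht => by cases ht⟩
  | cons a L ih =>
    obtain ⟨N, hN⟩ := ih fun t ht => hL t (List.mem_cons_of_mem _ ht)
    obtain ⟨h0, h1, h2, h3, h4⟩ := hL a List.mem_cons_self
    obtain ⟨n, hn⟩ := task_forces h0 h1 h2 h3 h4
    refine ⟨max N n, ?_⟩
    intro t ht
    rcases List.mem_cons.1 ht with rfl | ht
    · exact hn.mono (le_max_right _ _)
    · exact (hN t ht).mono (le_max_left _ _)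

/-- The row `j` of the table is the default row, with position `MO` and zone `Z`. -/
noncomputable def rowIs (tbl : BT) (j Z : ℕ) : Bool :=
  BT.rec (motive := fun _ => Bool)
    (fun M Z' => Bool.rec false (Nat.beq Z' Z) (Nat.beq M MO))
    (fun _ _ _ _ => false) (find tbl j)

theorem chunk_extend {tbl : BT} {a a' : ℕ} {ss : List ℕ} (hprev : ∀ j, j < a → Good tbl j)
    (hc : chunkOK tbl a ss = true) (hlen : a + ss.length = a') :
    ∀ j, j < a' → Good tbl j := by
  intro j hj
  by_cases h : j < a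
  · exact hprev j h
  · exact chunk_good ss a hc j (by omega) (by omega)

/-- The final assembly for a table with its default row and the tasks. -/
theorem forces_first_reply {tbl : BT} {K : ℕ} (hrows : ∀ j, j < K → RowValid (find tbl j))
    {Z0 j0 : ℕ} (hj0 : j0 < K) (h0 : rowIs tbl j0 Z0 = true)
    (L : List (ℕ × ℕ × ℕ))
    (hL : ∀ t ∈ L, t.2.2 < K ∧ taskOK tbl t = true ∧ t.1 ≤ 18 ∧ t.2.1 ≤ 18 ∧ (t.1 ≠ 0 ∨ t.2.1 ≠ 0))
    (P : ℕ → Prop)
    (hcover : ∀ i, i < 1024 → Z0.testBit i = true → i ≠ 429 → P i →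
      ∃ t ∈ L, t.1 = px i ∧ t.2.1 = qx i) :
    ∃ N, ∀ b : Cell, b ≠ c0 → (∀ i, cellOf i = b → P i) → MakerForces N {c0} {b} := by
  have hv0 : Sem MO Z0 := by
    have := hrows j0 hj0
    unfold rowIs at h0
    revert this h0
    generalize find tbl j0 = r
    cases r with
    | leaf M Z' =>
      intro h0 hv
      obtain ⟨h1, h2⟩ := rec_false h0
      have h1' : M = MO := beq_iff.1 h1
      have h2' : Z' = Z0 := beq_iff.1 h2
      subst h1' h2'
      exact hv
    | node l r =>
      intro h0 _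
      cases h0
  obtain ⟨n0, hn0⟩ := hv0
  obtain ⟨N, hN⟩ := tasks_uniform (tbl := tbl) L fun t ht => by
    obtain ⟨h1, h2⟩ := hL t ht
    exact ⟨hrows _ h1, h2⟩
  refine ⟨max n0 N, fun b hb hP => ?_⟩
  by_cases hZ : b ∈ cells Z0
  · obtain ⟨i, hi, hbit, rfl⟩ := mem_cells.1 hZ
    have hne : i ≠ 429 := by
      rintro rfl
      exact hb (by simp [cellOf, c0])
    obtain ⟨t, ht, h1, h2⟩ := hcover i hi hbit hne (hP i rfl)
    refine MakerForces.mono (le_max_right _ _) (force_of_task ?_)
    have := hN t ht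
    rwa [h1, h2] at this
  · refine MakerForces.mono (le_max_left _ _) ?_
    have := hn0 {b} ?_
    · rwa [cells_MO] at this
    · intro c hc
      rw [Finset.mem_singleton] at hc
      subst hc
      rw [cells_MO]
      exact ⟨by simpa using hb, hZ⟩

/-- Full answer from the assembly. -/
theorem maker_wins_of_all {N : ℕ} (h : ∀ b : Cell, b ≠ c0 → MakerForces N {c0} {b}) :
    MakerForces (N + 1) ∅ ∅ := by
  refine Or.inr ⟨c0, by simp, by simp, fun b hb _ => ?_⟩
  have hb' : b ≠ c0 := by
    rintro rfl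
    simp at hb
  have := h b hb'
  simpa using this

/-- Translating the position of the window to the origin. -/
theorem forces_origin {N : ℕ} {b : Cell} (h : MakerForces N {c0} {(b.1 + 13, b.2 + 13)}) :
    MakerForces N {((0 : ℤ), (0 : ℤ))} {b} := by
  have := forces_map tr tr_copy N _ _ h
  simpa [tr, c0] using this

/-- The cell at index `i`, when it is `(b.1 + 13, b.2 + 13)`, has `px i = max |b.1| |b.2|`. -/
theorem px_eq {i : ℕ} {b : Cell} (h : cellOf i = (b.1 + 13, b.2 + 13)) :
    (px i : ℤ) = max |b.1| |b.2| := by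
  simp only [cellOf, Prod.mk.injEq] at h
  obtain ⟨h1, h2⟩ := h
  have e1 : ((if 13 ≤ i % 32 then i % 32 - 13 else 13 - i % 32 : ℕ) : ℤ) = |b.1| := by
    rw [← abs_sub13]
    congr 1
    omega
  have e2 : ((if 13 ≤ i / 32 then i / 32 - 13 else 13 - i / 32 : ℕ) : ℤ) = |b.2| := by
    rw [← abs_sub13]
    congr 1
    omega
  simp only [px]
  rw [Nat.cast_max, e1, e2]

end Vale.Agent.Lib.P062
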