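import Mathlib
import Vale.Agent.Lib.P062.Root
import Vale.Agent.Lib.P062.Core

set_option linter.unusedSimpArgs false

namespace Vale.Agent.Lib.P062.Asm

open Vale.Agent.Lib.P062

/-! ### From the list game of `Core` to the game on finite sets -/

theorem orient_matrix (o : ℕ) : ∃ a b c d : ℤ, IsSignedPerm a b c d ∧
    ∀ p : ℤ × ℤ, Core.orient o p = (a * p.1 + b * p.2, c * p.1 + d * p.2) := by
  rcases o with _ | _ | _ | _ | _ | _ | _ | o
  · exact ⟨1, 0, 0, 1, Or.inl ⟨Or.inl rfl, rfl, rfl, Or.inl rfl⟩, fun ⟨x, y⟩ => by simp [Core.orient]⟩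
  · exact ⟨0, -1, 1, 0, Or.inr ⟨rfl, Or.inr rfl, Or.inl rfl, rfl⟩, fun ⟨x, y⟩ => by simp [Core.orient]⟩
  · exact ⟨-1, 0, 0, -1, Or.inl ⟨Or.inr rfl, rfl, rfl, Or.inr rfl⟩, fun ⟨x, y⟩ => by simp [Core.orient]⟩
  · exact ⟨0, 1, -1, 0, Or.inr ⟨rfl, Or.inl rfl, Or.inr rfl, rfl⟩, fun ⟨x, y⟩ => by simp [Core.orient]⟩
  · exact ⟨1, 0, 0, -1, Or.inl ⟨Or.inl rfl, rfl, rfl, Or.inr rfl⟩, fun ⟨x, y⟩ => by simp [Core.orient]⟩
  · exact ⟨-1, 0, 0, 1, Or.inl ⟨Or.inr rfl, rfl, rfl, Or.inl rfl⟩, fun ⟨x, y⟩ => by simp [Core.orient]⟩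
  · exact ⟨0, 1, 1, 0, Or.inr ⟨rfl, Or.inl rfl, Or.inl rfl, rfl⟩, fun ⟨x, y⟩ => by simp [Core.orient]⟩
  · exact ⟨0, -1, -1, 0, Or.inr ⟨rfl, Or.inr rfl, Or.inr rfl, rfl⟩, fun ⟨x, y⟩ => by simp [Core.orient]⟩

theorem mem_snaky_list {p : ℤ × ℤ} (hp : p ∈ snaky) : p ∈ Core.snakyCells := by
  simpa [snaky, Core.snakyCells] using hp

theorem owns_of_hasCopy {L : List (ℤ × ℤ)} (h : Core.HasCopy L) : OwnsCopy L.toFinset := by
  obtain ⟨t, o, hall⟩ := h
  obtain ⟨a, b, c, d, hs, he⟩ := orient_matrix o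
  refine ⟨_, ⟨a, b, c, d, t.1, t.2, hs, rfl⟩, ?_⟩
  intro x hx
  obtain ⟨p, hp, rfl⟩ := Finset.mem_image.1 hx
  have := hall p (mem_snaky_list hp)
  rw [he p] at this
  exact List.mem_toFinset.2 this

theorem bridge : ∀ (n : ℕ) (M B : List (ℤ × ℤ)), Core.WinL n M B →
    MakerForces n M.toFinset B.toFinset := by
  intro n
  induction n with
  | zero =>
    intro M B h
    exact owns_of_hasCopy h
  | succ n ih =>
    intro M B h
    rcases h with h | ⟨m, h1, h2, h3⟩
    · exact Or.inl (owns_of_hasCopy h)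
    · refine Or.inr ⟨m, by simpa using h1, by simpa using h2, fun b hb hb' => ?_⟩
      have := ih _ _ (h3 b (by simpa using hb) (by simpa using hb'))
      simpa [List.toFinset_cons] using this

/-! ### A pattern with the single Maker cell `(10, 10)` -/

/-- The centre of the certificates. -/
def c1 : Cell := (10, 10)

theorem cellOf210 : Core.cellOf 210 = c1 := by
  simp [Core.cellOf, Core.W, c1]

theorem op_forces (x : Core.OP) (hM : x.M = Core.bit 210) :
    ∃ n, ∀ b : Cell, b ≠ c1 → (∀ i, x.F.testBit i = true → Core.cellOf i ≠ b) →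
      MakerForces n {c1} {b} := by
  obtain ⟨n, hn⟩ := x.h
  refine ⟨n, fun b hb hav => ?_⟩
  have h := hn [c1] [b] ⟨?_, ?_, ?_⟩
  · simpa using bridge _ _ _ h
  · intro i hi
    rw [hM, Core.testBit_bit] at hi
    have : i = 210 := by simpa [eq_comm] using hi
    subst this
    rw [cellOf210]
    exact List.mem_singleton.2 rfl
  · intro i hi h
    exact hav i hi (List.mem_singleton.1 h)
  · intro c hc h
    rw [List.mem_singleton.1 hc] at h
    exact hb (List.mem_singleton.1 h).symm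

/-- One row of the table: the canonical reply `(p, q)` and its proof. -/
abbrev Row := ℕ × ℕ × Core.OP

/-- The cell number of the canonical reply. -/
def idx (p q : ℕ) : ℕ := (10 + q) * 20 + (10 + p)

/-- The check of one row. -/
def rowOK (t : Row) : Bool :=
  Nat.beq t.2.2.M (Nat.shiftLeft 1 210) &&
    Nat.beq (Nat.land t.2.2.F (Nat.shiftLeft 1 (idx t.1 t.2.1))) 0 &&
    Nat.blt t.1 10 && Nat.blt t.2.1 10 && !(Nat.beq t.1 0 && Nat.beq t.2.1 0)

theorem row_forces (t : Row) (h : rowOK t = true) :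
    ∃ n, MakerForces n {c1} {((10 + (t.1 : ℕ) : ℤ), (10 + (t.2.1 : ℕ) : ℤ))} := by
  simp only [rowOK, Bool.and_eq_true, Bool.not_eq_true', Bool.and_eq_false_iff] at h
  obtain ⟨⟨⟨⟨hM, hF⟩, hp⟩, hq⟩, hne⟩ := h
  have hM' : t.2.2.M = Core.bit 210 := Nat.eq_of_beq_eq_true hM
  have hF' : Nat.land t.2.2.F (Nat.shiftLeft 1 (idx t.1 t.2.1)) = 0 := Nat.eq_of_beq_eq_true hF
  have hp' : t.1 < 10 := by simpa [Nat.blt_eq] using hp
  have hq' : t.2.1 < 10 := by simpa [Nat.blt_eq] using hq
  obtain ⟨n, hn⟩ := op_forces t.2.2 hM'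
  refine ⟨n, hn _ ?_ ?_⟩
  · intro he
    simp only [c1, Prod.mk.injEq] at he
    rcases hne with h0 | h0
    · have : t.1 ≠ 0 := by
        intro h'
        rw [h'] at h0
        cases h0
      omega
    · have : t.2.1 ≠ 0 := by
        intro h'
        rw [h'] at h0
        cases h0
      omega
  · intro i hi he
    have hc : Core.cellOf (idx t.1 t.2.1) = ((10 + (t.1 : ℕ) : ℤ), (10 + (t.2.1 : ℕ) : ℤ)) := by
      simp only [Core.cellOf, Core.W, idx, Prod.mk.injEq]
      constructor <;> omega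
    have : i = idx t.1 t.2.1 := Core.cellOf_injective (he.trans hc.symm)
    subst this
    have h0 := congrArg (fun z => z.testBit (idx t.1 t.2.1)) hF'
    have e : (Nat.land t.2.2.F (Nat.shiftLeft 1 (idx t.1 t.2.1))).testBit (idx t.1 t.2.1)
        = t.2.2.F.testBit (idx t.1 t.2.1) := by
      change (t.2.2.F &&& (1 <<< (idx t.1 t.2.1))).testBit _ = _
      rw [Nat.testBit_and, Nat.one_shiftLeft, Nat.testBit_two_pow_self, Bool.and_true]
    simp only [Nat.zero_testBit] at h0
    rw [e, hi] at h0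
    cases h0

theorem rows_forces (L : List Row) (hL : L.all rowOK = true) :
    ∃ N, ∀ t ∈ L, MakerForces N {c1} {((10 + (t.1 : ℕ) : ℤ), (10 + (t.2.1 : ℕ) : ℤ))} := by
  induction L with
  | nil => exact ⟨0, fun t ht => by cases ht⟩
  | cons a L ih =>
    simp only [List.all_cons, Bool.and_eq_true] at hL
    obtain ⟨N, hN⟩ := ih hL.2
    obtain ⟨n, hn⟩ := row_forces a hL.1
    refine ⟨max N n, fun t ht => ?_⟩
    rcases List.mem_cons.1 ht with rfl | ht
    · exact hn.mono (le_max_right _ _)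
    · exact (hN t ht).mono (le_max_left _ _)

/-! ### Symmetries at the origin -/

/-- Translation of the centre to the origin. -/
def tr10 : Cell ≃ Cell where
  toFun p := (p.1 - 10, p.2 - 10)
  invFun p := (p.1 + 10, p.2 + 10)
  left_inv p := by simp
  right_inv p := by simp

theorem tr10_copy (C : Finset Cell) (h : IsAllowedCopy C) : IsAllowedCopy (C.map tr10.toEmbedding) :=
  map_copy tr10 1 0 0 1 (-10) (-10) (Or.inl ⟨Or.inl rfl, rfl, rfl, Or.inl rfl⟩)
    (fun p => by simp [tr10, sub_eq_add_neg]) h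

/-- The reflection `x ↦ -x`. -/
def rx0 : Cell ≃ Cell where
  toFun p := (-p.1, p.2)
  invFun p := (-p.1, p.2)
  left_inv p := by simp
  right_inv p := by simp

/-- The reflection `y ↦ -y`. -/
def ry0 : Cell ≃ Cell where
  toFun p := (p.1, -p.2)
  invFun p := (p.1, -p.2)
  left_inv p := by simp
  right_inv p := by simp

theorem rx0_copy (C : Finset Cell) (h : IsAllowedCopy C) : IsAllowedCopy (C.map rx0.toEmbedding) :=
  map_copy rx0 (-1) 0 0 1 0 0 (Or.inl ⟨Or.inr rfl, rfl, rfl, Or.inl rfl⟩)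
    (fun p => by simp [rx0]) h

theorem ry0_copy (C : Finset Cell) (h : IsAllowedCopy C) : IsAllowedCopy (C.map ry0.toEmbedding) :=
  map_copy ry0 1 0 0 (-1) 0 0 (Or.inl ⟨Or.inl rfl, rfl, rfl, Or.inr rfl⟩)
    (fun p => by simp [ry0]) h

/-- The origin as a cell. -/
def o0 : Cell := ((0 : ℤ), (0 : ℤ))

theorem to_origin {n : ℕ} {x y : ℤ} (h : MakerForces n {c1} {(x + 10, y + 10)}) :
    MakerForces n {o0} {(x, y)} := by
  have := forces_map tr10 tr10_copy n _ _ h
  simpa [tr10, c1, o0] using this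

theorem force_rx0 {n : ℕ} {x y : ℤ} (h : MakerForces n {o0} {(-x, y)}) :
    MakerForces n {o0} {(x, y)} := by
  have := forces_map rx0 rx0_copy n _ _ h
  simpa [rx0, o0] using this

theorem force_ry0 {n : ℕ} {x y : ℤ} (h : MakerForces n {o0} {(x, -y)}) :
    MakerForces n {o0} {(x, y)} := by
  have := forces_map ry0 ry0_copy n _ _ h
  simpa [ry0, o0] using this

theorem force_sw0 {n : ℕ} {x y : ℤ} (h : MakerForces n {o0} {(y, x)}) :
    MakerForces n {o0} {(x, y)} := by
  have := forces_map sw sw_copy n _ _ h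
  simpa [sw, o0] using this

/-- Reduction of an arbitrary first reply to a canonical one. -/
theorem force_canon0 {n : ℕ} {x y : ℤ}
    (h : MakerForces n {o0} {((max |x| |y| : ℤ), (min |x| |y| : ℤ))}) :
    MakerForces n {o0} {(x, y)} := by
  have step1 : MakerForces n {o0} {(|x|, |y|)} → MakerForces n {o0} {(x, y)} := by
    intro h1
    have h2 : MakerForces n {o0} {(x, |y|)} := by
      rcases le_total 0 x with hx | hx
      · rwa [abs_of_nonneg hx] at h1
      · rw [abs_of_nonpos hx] at h1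
        exact force_rx0 h1
    rcases le_total 0 y with hy | hy
    · rwa [abs_of_nonneg hy] at h2
    · rw [abs_of_nonpos hy] at h2
      exact force_ry0 h2
  apply step1
  rcases le_total |x| |y| with hle | hle
  · rw [max_eq_right hle, min_eq_left hle] at h
    exact force_sw0 h
  · rw [max_eq_left hle, min_eq_right hle] at h
    exact h

/-- The larger absolute coordinate, relative to the centre, of a cell number. -/
def px (i : ℕ) : ℕ := max (if 10 ≤ i % 20 then i % 20 - 10 else 10 - i % 20)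
  (if 10 ≤ i / 20 then i / 20 - 10 else 10 - i / 20)

/-- The smaller absolute coordinate, relative to the centre, of a cell number. -/
def qx (i : ℕ) : ℕ := min (if 10 ≤ i % 20 then i % 20 - 10 else 10 - i % 20)
  (if 10 ≤ i / 20 then i / 20 - 10 else 10 - i / 20)

theorem abs_sub10 (a : ℕ) : |((a : ℕ) : ℤ) - 10| = ((if 10 ≤ a then a - 10 else 10 - a : ℕ) : ℤ) := by
  split_ifs with h
  · rw [abs_of_nonneg (by omega)]; omega
  · rw [abs_of_nonpos (by omega)]; omega

theorem px_qx_eq {i : ℕ} {x y : ℤ} (h : Core.cellOf i = (x + 10, y + 10)) :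
    (px i : ℤ) = max |x| |y| ∧ (qx i : ℤ) = min |x| |y| := by
  simp only [Core.cellOf, Core.W, Prod.mk.injEq] at h
  obtain ⟨h1, h2⟩ := h
  have e1 : ((if 10 ≤ i % 20 then i % 20 - 10 else 10 - i % 20 : ℕ) : ℤ) = |x| := by
    rw [← abs_sub10]
    congr 1
    omega
  have e2 : ((if 10 ≤ i / 20 then i / 20 - 10 else 10 - i / 20 : ℕ) : ℤ) = |y| := by
    rw [← abs_sub10]
    congr 1
    omega
  constructor
  · simp only [px]
    rw [Nat.cast_max, e1, e2]
  · simp only [qx]
    rw [Nat.cast_min, e1, e2]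

/-- The assembly of the table: `x0` is the proof without a reply, `L` the canonical replies. -/
theorem first_reply (x0 : Core.OP) (hx0 : Nat.beq x0.M (Nat.shiftLeft 1 210) = true)
    (hsize : Nat.blt x0.F (Nat.shiftLeft 1 400) = true)
    (L : List Row) (hL : L.all rowOK = true) (P : ℕ → ℕ → Prop)
    (hcover : ∀ i, i < 400 → x0.F.testBit i = true → i ≠ 210 → P (px i) (qx i) →
      ∃ t ∈ L, t.1 = px i ∧ t.2.1 = qx i) :
    ∃ N, ∀ b : Cell, b ≠ o0 → (∀ p q : ℕ, (p : ℤ) = max |b.1| |b.2| → (q : ℤ) = min |b.1| |b.2| →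
      P p q) → MakerForces N {o0} {b} := by
  obtain ⟨n0, hn0⟩ := op_forces x0 (Nat.eq_of_beq_eq_true hx0)
  obtain ⟨N, hN⟩ := rows_forces L hL
  refine ⟨max n0 N, fun b hb hP => ?_⟩
  obtain ⟨x, y⟩ := b
  have hb' : ((x + 10, y + 10) : Cell) ≠ c1 := by
    intro he
    simp only [c1, Prod.mk.injEq] at he
    apply hb
    simp only [o0, Prod.mk.injEq]
    omega
  by_cases hav : ∀ i, x0.F.testBit i = true → Core.cellOf i ≠ (x + 10, y + 10)
  · exact to_origin ((hn0 _ hb' hav).mono (le_max_left _ _))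
  · push Not at hav
    obtain ⟨i, hi, he⟩ := hav
    have hlt : i < 400 := by
      by_contra hge
      have h1 : x0.F < 2 ^ (400 : ℕ) := by
        rw [Nat.blt_eq] at hsize
        rw [← Nat.one_shiftLeft]
        exact hsize
      have h3 : (2 : ℕ) ^ (400 : ℕ) ≤ 2 ^ i := Nat.pow_le_pow_right (by decide) (by omega)
      have h2 : x0.F < 2 ^ i := lt_of_lt_of_le h1 h3
      rw [Nat.testBit_lt_two_pow h2] at hi
      cases hi
    have hne : i ≠ 210 := by
      rintro rfl
      exact hb' (he.symm.trans cellOf210)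
    obtain ⟨e1, e2⟩ := px_qx_eq he
    obtain ⟨t, ht, h1, h2⟩ := hcover i hlt hi hne (hP _ _ e1 e2)
    apply force_canon0
    have key := hN t ht
    rw [h1, h2] at key
    have hc : ((10 + ((px i : ℕ) : ℤ)), (10 + ((qx i : ℕ) : ℤ))) =
        ((max |x| |y| : ℤ) + 10, (min |x| |y| : ℤ) + 10) := by
      rw [e1, e2, add_comm, add_comm (10 : ℤ)]
    rw [hc] at key
    exact to_origin (key.mono (le_max_right _ _))

/-- A bounded win on the empty board from all replies to the opening at the origin. -/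
theorem maker_wins_empty {N : ℕ} (h : ∀ b : Cell, b ≠ o0 → MakerForces N {o0} {b}) :
    MakerForces (N + 1) ∅ ∅ := by
  refine Or.inr ⟨o0, by simp, by simp, fun b hb _ => ?_⟩
  have hb' : b ≠ o0 := by
    rintro rfl
    simp at hb
  have := h b hb'
  simpa using this

end Vale.Agent.Lib.P062.Asm
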