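import Mathlib
import Vale.Agent.Lib.P062.Asm

set_option linter.unusedSimpArgs false

namespace Vale.Agent.Lib.P062.Asm2

open Vale.Agent.Lib.P062
open Vale.Agent.Lib.P062.Asm

/-! ### Positions with the two Maker cells `(10,10)`, `(10,11)` and the Breaker cell `(11,10)` -/

/-- The second Maker cell. -/
def c2 : Cell := (10, 11)

/-- The first Breaker cell. -/
def d1 : Cell := (11, 10)

/-- The mask of the two Maker cells. -/
def S2 : ℕ := Nat.lor (Nat.shiftLeft 1 210) (Nat.shiftLeft 1 230)

theorem cellOf230 : Core.cellOf 230 = c2 := by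
  simp [Core.cellOf, Core.W, c2]

theorem cellOf211 : Core.cellOf 211 = d1 := by
  simp [Core.cellOf, Core.W, d1]

theorem testBit_S2 {i : ℕ} (h : S2.testBit i = true) : i = 210 ∨ i = 230 := by
  have hS : S2 = (1 <<< 210) ||| (1 <<< 230) := rfl
  rw [hS, Nat.testBit_or, Nat.one_shiftLeft, Nat.one_shiftLeft, Nat.testBit_two_pow,
    Nat.testBit_two_pow] at h
  simp only [Bool.or_eq_true, decide_eq_true_eq] at h
  rcases h with h | h
  · exact Or.inl h.symm
  · exact Or.inr h.symm

theorem sub_of_lor {a s i : ℕ} (h : Nat.lor a s = s) (hi : a.testBit i = true) :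
    s.testBit i = true := by
  have h2 : (a ||| s) = s := h
  rw [← h2, Nat.testBit_or, hi, Bool.true_or]

theorem clear_of_land' {a m : ℕ} (h : Nat.land a m = 0) {i : ℕ} (hm : m.testBit i = true) :
    a.testBit i = false := by
  have h2 : (a &&& m) = 0 := h
  have h3 := congrArg (fun z => z.testBit i) h2
  simp only [Nat.testBit_and, hm, Bool.and_true, Nat.zero_testBit] at h3
  exact h3

/-- A pattern with Maker cells among the two centres wins against every pair of Breaker cells
avoiding its zone. -/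
theorem op_forces2 (x : Core.OP) (hM : Nat.lor x.M S2 = S2) :
    ∃ n, ∀ r : Cell, r ≠ c1 → r ≠ c2 → (∀ i, x.F.testBit i = true → Core.cellOf i ≠ r) →
      (∀ i, x.F.testBit i = true → Core.cellOf i ≠ d1) →
      MakerForces n {c1, c2} {d1, r} := by
  obtain ⟨n, hn⟩ := x.h
  refine ⟨n, fun r hr1 hr2 hav hav1 => ?_⟩
  have h := hn [c1, c2] [d1, r] ⟨?_, ?_, ?_⟩
  · simpa using bridge _ _ _ h
  · intro i hi
    rcases testBit_S2 (sub_of_lor hM hi) with rfl | rfl
    · rw [cellOf210]
      simp
    · rw [cellOf230]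
      simp
  · intro i hi h
    simp only [List.mem_cons, List.not_mem_nil, or_false] at h
    rcases h with h | h
    · exact hav1 i hi h
    · exact hav i hi h
  · intro c hc h
    simp only [List.mem_cons, List.not_mem_nil, or_false] at hc h
    rcases hc with rfl | rfl <;> rcases h with h | h
    · simp [c1, d1] at h
    · exact hr1 h.symm
    · simp [c2, d1] at h
    · exact hr2 h.symm

/-- One row: the cell number of the reply, and its proof. -/
abbrev Row2 := ℕ × Core.OP

/-- The check of one row. -/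
def rowOK2 (t : Row2) : Bool :=
  Nat.beq (Nat.lor t.2.M S2) S2 &&
    Nat.beq (Nat.land t.2.F (Nat.lor (Nat.shiftLeft 1 211) (Nat.shiftLeft 1 t.1))) 0 &&
    !(Nat.beq t.1 210) && !(Nat.beq t.1 230)

theorem row2_forces (t : Row2) (h : rowOK2 t = true) :
    ∃ n, MakerForces n {c1, c2} {d1, Core.cellOf t.1} := by
  simp only [rowOK2, Bool.and_eq_true, Bool.not_eq_true'] at h
  obtain ⟨⟨⟨hM, hF⟩, h1⟩, h2⟩ := h
  have hM' := Nat.eq_of_beq_eq_true hM
  have hF' := Nat.eq_of_beq_eq_true hF
  have hne1 : t.1 ≠ 210 := fun e => by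
    rw [e] at h1
    cases h1
  have hne2 : t.1 ≠ 230 := fun e => by
    rw [e] at h2
    cases h2
  obtain ⟨n, hn⟩ := op_forces2 t.2 hM'
  have hbit1 : (Nat.lor (Nat.shiftLeft 1 211) (Nat.shiftLeft 1 t.1)).testBit 211 = true := by
    change ((1 <<< 211) ||| (1 <<< t.1)).testBit 211 = true
    rw [Nat.testBit_or, Nat.one_shiftLeft, Nat.testBit_two_pow_self, Bool.true_or]
  have hbit2 : (Nat.lor (Nat.shiftLeft 1 211) (Nat.shiftLeft 1 t.1)).testBit t.1 = true := by
    change ((1 <<< 211) ||| (1 <<< t.1)).testBit t.1 = true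
    rw [Nat.testBit_or, Nat.one_shiftLeft, Nat.one_shiftLeft, Nat.testBit_two_pow_self,
      Bool.or_true]
  refine ⟨n, hn _ ?_ ?_ ?_ ?_⟩
  · intro e
    rw [← cellOf210] at e
    exact hne1 (Core.cellOf_injective e)
  · intro e
    rw [← cellOf230] at e
    exact hne2 (Core.cellOf_injective e)
  · intro i hi e
    have : i = t.1 := Core.cellOf_injective e
    subst this
    rw [clear_of_land' hF' hbit2] at hi
    cases hi
  · intro i hi e
    rw [← cellOf211] at e
    have : i = 211 := Core.cellOf_injective e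
    subst this
    rw [clear_of_land' hF' hbit1] at hi
    cases hi

theorem rows2_forces (L : List Row2) (hL : L.all rowOK2 = true) :
    ∃ N, ∀ t ∈ L, MakerForces N {c1, c2} {d1, Core.cellOf t.1} := by
  induction L with
  | nil => exact ⟨0, fun t ht => by cases ht⟩
  | cons a L ih =>
    simp only [List.all_cons, Bool.and_eq_true] at hL
    obtain ⟨N, hN⟩ := ih hL.2
    obtain ⟨n, hn⟩ := row2_forces a hL.1
    refine ⟨max N n, fun t ht => ?_⟩
    rcases List.mem_cons.1 ht with rfl | ht
    · exact hn.mono (le_max_right _ _)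
    · exact (hN t ht).mono (le_max_left _ _)

/-- The assembly for the position after the second Maker stone: `x0` is the proof without a reply,
`L` the replies; the replies in `E` are left out. -/
theorem second_stone (x0 : Core.OP) (hx0 : Nat.beq (Nat.lor x0.M S2) S2 = true)
    (hd1 : Nat.beq (Nat.land x0.F (Nat.shiftLeft 1 211)) 0 = true)
    (hsize : Nat.blt x0.F (Nat.shiftLeft 1 400) = true)
    (L : List Row2) (hL : L.all rowOK2 = true) (P : ℕ → Prop)
    (hcover : ∀ i, i < 400 → x0.F.testBit i = true → i ≠ 210 → i ≠ 230 → P i →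
      ∃ t ∈ L, t.1 = i) :
    ∃ N, ∀ r : Cell, r ≠ c1 → r ≠ c2 → (∀ i, Core.cellOf i = r → P i) →
      MakerForces N {c1, c2} {d1, r} := by
  obtain ⟨n0, hn0⟩ := op_forces2 x0 (Nat.eq_of_beq_eq_true hx0)
  obtain ⟨N, hN⟩ := rows2_forces L hL
  have hd1' : ∀ i, x0.F.testBit i = true → Core.cellOf i ≠ d1 := by
    intro i hi e
    rw [← cellOf211] at e
    have : i = 211 := Core.cellOf_injective e
    subst this
    have hb : (Nat.shiftLeft 1 211).testBit 211 = true := by
      change (1 <<< 211).testBit 211 = true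
      rw [Nat.one_shiftLeft, Nat.testBit_two_pow_self]
    rw [clear_of_land' (Nat.eq_of_beq_eq_true hd1) hb] at hi
    cases hi
  refine ⟨max n0 N, fun r hr1 hr2 hP => ?_⟩
  by_cases hav : ∀ i, x0.F.testBit i = true → Core.cellOf i ≠ r
  · exact (hn0 r hr1 hr2 hav hd1').mono (le_max_left _ _)
  · push Not at hav
    obtain ⟨i, hi, rfl⟩ := hav
    have hlt : i < 400 := by
      by_contra hge
      have h1 : x0.F < 2 ^ (400 : ℕ) := by
        rw [Nat.blt_eq] at hsize
        rw [← Nat.one_shiftLeft]
        exact hsize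
      have h3 : (2 : ℕ) ^ (400 : ℕ) ≤ 2 ^ i := Nat.pow_le_pow_right (by decide) (by omega)
      have h2 : x0.F < 2 ^ i := lt_of_lt_of_le h1 h3
      rw [Nat.testBit_lt_two_pow h2] at hi
      cases hi
    have hne1 : i ≠ 210 := by
      rintro rfl
      exact hr1 cellOf210
    have hne2 : i ≠ 230 := by
      rintro rfl
      exact hr2 cellOf230
    obtain ⟨t, ht, rfl⟩ := hcover i hlt hi hne1 hne2 (hP i rfl)
    exact (hN t ht).mono (le_max_right _ _)

/-- Translation to the origin of the position after the second stone. -/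
theorem to_origin2 {n : ℕ} {x y : ℤ} (h : MakerForces n {c1, c2} {d1, (x + 10, y + 10)}) :
    MakerForces n {((0 : ℤ), (0 : ℤ)), ((0 : ℤ), (1 : ℤ))} {((1 : ℤ), (0 : ℤ)), (x, y)} := by
  have := forces_map tr10 tr10_copy n _ _ h
  simpa [tr10, c1, c2, d1] using this

end Vale.Agent.Lib.P062.Asm2
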