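import Vale.Agent.Lib.P062.Root

set_option linter.unusedSimpArgs false

namespace Vale.Agent.Lib.P062

open Chk

/-- The zone of a row. -/
noncomputable def zoneOf (tbl : BT) (j : ℕ) : ℕ :=
  BT.rec (motive := fun _ => ℕ) (fun _ Z => Z) (fun _ _ _ _ => 0) (find tbl j)

/-- Row `j` has position `M` and its zone avoids the mask `forb`. -/
noncomputable def rowCheck (tbl : BT) (j M forb : ℕ) : Bool :=
  BT.rec (motive := fun _ => Bool)
    (fun M' Z' => Bool.rec false (Nat.beq (Nat.land Z' forb) 0) (Nat.beq M' M))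
    (fun _ _ _ _ => false) (find tbl j)

theorem rowCheck_sem {tbl : BT} {j M forb : ℕ} (hv : RowValid (find tbl j))
    (h : rowCheck tbl j M forb = true) :
    Sem M (zoneOf tbl j) ∧ Nat.land (zoneOf tbl j) forb = 0 := by
  unfold rowCheck at h
  unfold zoneOf
  revert hv h
  generalize find tbl j = r
  cases r with
  | leaf M' Z' =>
    intro hv h
    obtain ⟨h1, h2⟩ := rec_false h
    have h1' : M' = M := beq_iff.1 h1
    subst h1'
    exact ⟨hv, beq_iff.1 h2⟩
  | node l r =>
    intro _ h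
    cases h

/-- The intersection of the zones of a list of rows. -/
noncomputable def zoneMeet (tbl : BT) (J : List ℕ) : ℕ :=
  List.rec (motive := fun _ => ℕ) (2 ^ 1024 - 1) (fun j _ acc => Nat.land (zoneOf tbl j) acc) J

/-- The rows `J` are below `K`, all have position `M`, avoid `forb`, and their zones meet at most
in the bit `e`. -/
noncomputable def levelOK (tbl : BT) (K : ℕ) (J : List ℕ) (M forb e : ℕ) : Bool :=
  (!J.isEmpty) && (J.all fun j => Nat.ble (Nat.succ j) K && rowCheck tbl j M forb) &&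
    (Nat.beq (zoneMeet tbl J) 0 || Nat.beq (zoneMeet tbl J) (Nat.shiftLeft 1 e))

theorem testBit_zoneMeet {tbl : BT} {i : ℕ} (hi : i < 1024) :
    ∀ J : List ℕ, (∀ j ∈ J, (zoneOf tbl j).testBit i = true) → (zoneMeet tbl J).testBit i = true
  | [], _ => by
    change (2 ^ 1024 - 1 : ℕ).testBit i = true
    rw [Nat.testBit_two_pow_sub_one]
    simpa using hi
  | j :: J, h => by
    change (Nat.land (zoneOf tbl j) (zoneMeet tbl J)).testBit i = true
    rw [testBit_land]
    simp only [Bool.and_eq_true]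
    exact ⟨h j List.mem_cons_self,
      testBit_zoneMeet hi J fun j' hj' => h j' (List.mem_cons_of_mem _ hj')⟩

theorem sem_uniform {tbl : BT} {M : ℕ} :
    ∀ J : List ℕ, (∀ j ∈ J, Sem M (zoneOf tbl j)) →
      ∃ N, ∀ j ∈ J, ∀ B : Finset Cell, (∀ c ∈ B, c ∉ cells M ∧ c ∉ cells (zoneOf tbl j)) →
        MakerForces N (cells M) B
  | [], _ => ⟨0, fun j hj => by cases hj⟩
  | j :: J, h => by
    obtain ⟨N, hN⟩ := sem_uniform J fun j' hj' => h j' (List.mem_cons_of_mem _ hj')
    obtain ⟨n, hn⟩ := h j List.mem_cons_self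
    refine ⟨max N n, fun j' hj' B hB => ?_⟩
    rcases List.mem_cons.1 hj' with rfl | hj'
    · exact (hn B hB).mono (le_max_right _ _)
    · exact (hN j' hj' B hB).mono (le_max_left _ _)

/-- One step down a line: if all Breaker replies but `e` are settled by rows, a win after the
reply `e` gives a win at the previous position. -/
theorem level_step {tbl : BT} {K : ℕ} (hrows : ∀ j, j < K → RowValid (find tbl j))
    {J : List ℕ} {mask forb e : ℕ} (hl : levelOK tbl K J mask forb e = true)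
    {M B : Finset Cell} {m : Cell} (hmask : cells mask = insert m M) (hmM : m ∉ M) (hmB : m ∉ B)
    (hB1 : ∀ c ∈ B, c ∉ insert m M) (hB2 : ∀ c ∈ B, c ∈ cells forb) {n : ℕ}
    (hyp : MakerForces n (insert m M) (insert (cellOf e) B)) : ∃ N, MakerForces N M B := by
  unfold levelOK at hl
  simp only [Bool.and_eq_true, Bool.or_eq_true, List.all_eq_true] at hl
  obtain ⟨⟨hne, hall⟩, hcov⟩ := hl
  have hsem : ∀ j ∈ J, Sem mask (zoneOf tbl j) ∧ Nat.land (zoneOf tbl j) forb = 0 := by
    intro j hj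
    obtain ⟨h1, h2⟩ := hall j hj
    exact rowCheck_sem (hrows j (lt_of_ble h1)) h2
  obtain ⟨N, hN⟩ := sem_uniform (tbl := tbl) (M := mask) J fun j hj => (hsem j hj).1
  refine ⟨max N n + 1, Or.inr ⟨m, hmM, hmB, fun r hr hr' => ?_⟩⟩
  by_cases hre : r = cellOf e
  · subst hre
    exact hyp.mono (le_max_right _ _)
  · have hex : ∃ j ∈ J, r ∉ cells (zoneOf tbl j) := by
      by_contra hcon
      push Not at hcon
      obtain ⟨j0, hj0⟩ : ∃ j0, j0 ∈ J := by
        cases J with
        | nil => simp at hne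
        | cons a t => exact ⟨a, List.mem_cons_self⟩
      obtain ⟨i, hi, _, rfl⟩ := mem_cells.1 (hcon j0 hj0)
      have hm := testBit_zoneMeet (tbl := tbl) hi J fun j hj => testBit_of_cellOf_mem (hcon j hj)
      rcases hcov with h0 | h0
      · rw [beq_iff.1 h0] at hm
        simp at hm
      · rw [beq_iff.1 h0, testBit_bit] at hm
        have : i = e := by simpa using hm
        exact hre (by rw [this])
    obtain ⟨j, hj, hrz⟩ := hex
    have := hN j hj (insert r B) ?_
    · rw [hmask] at this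
      exact this.mono (le_max_left _ _)
    · intro c hc
      rcases Finset.mem_insert.1 hc with rfl | hc
      · rw [hmask]
        exact ⟨hr, hrz⟩
      · refine ⟨by rw [hmask]; exact hB1 c hc, fun hz => ?_⟩
        obtain ⟨i, hi, hbit, rfl⟩ := mem_cells.1 (hB2 c hc)
        have h1 := testBit_of_cellOf_mem hz
        have h2 := testBit_land (zoneOf tbl j) forb i
        rw [(hsem j hj).2, h1, hbit] at h2
        simp at h2

/-- Translation back from the origin to the window. -/
theorem forces_window {n : ℕ} {M B : Finset Cell} (h : MakerForces n M B) :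
    MakerForces n (M.map tr.symm.toEmbedding) (B.map tr.symm.toEmbedding) :=
  forces_map tr.symm
    (fun C hC => map_copy tr.symm 1 0 0 1 13 13 (Or.inl ⟨Or.inl rfl, rfl, rfl, Or.inl rfl⟩)
      (fun p => by simp [tr]) hC) n M B h

theorem qx_eq {i : ℕ} {b : Cell} (h : cellOf i = (b.1 + 13, b.2 + 13)) :
    (qx i : ℤ) = min |b.1| |b.2| := by
  simp only [cellOf, Prod.mk.injEq] at h
  obtain ⟨h1, h2⟩ := h
  have e1 : ((if 13 ≤ i % 32 then i % 32 - 13 else 13 - i % 32 : ℕ) : ℤ) = |b.1| := by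
    rw [← abs_sub13]
    congr 1
    omega
  have e2 : ((if 13 ≤ i / 32 then i / 32 - 13 else 13 - i / 32 : ℕ) : ℤ) = |b.2| := by
    rw [← abs_sub13]
    congr 1
    omega
  unfold qx
  rw [← e1, ← e2]
  push_cast
  rfl

/-- Win for all first replies from the rows and a win for the reply `(14, 13)`. -/
theorem maker_wins_of_adjacent {tbl : BT} {K : ℕ} (hrows : ∀ j, j < K → RowValid (find tbl j))
    {Z0 j0 : ℕ} (hj0 : j0 < K) (h0 : rowIs tbl j0 Z0 = true)
    (L : List (ℕ × ℕ × ℕ))
    (hL : ∀ t ∈ L, t.2.2 < K ∧ taskOK tbl t = true ∧ t.1 ≤ 18 ∧ t.2.1 ≤ 18 ∧ (t.1 ≠ 0 ∨ t.2.1 ≠ 0))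
    (hcover : ∀ i, i < 1024 → Z0.testBit i = true → i ≠ 429 → ¬ (px i = 1 ∧ qx i = 0) →
      ∃ t ∈ L, t.1 = px i ∧ t.2.1 = qx i)
    {N1 : ℕ} (hadj : MakerForces N1 {c0} {((14 : ℤ), (13 : ℤ))}) :
    ∃ n, MakerForces n ∅ ∅ := by
  obtain ⟨N, hN⟩ := forces_first_reply hrows hj0 h0 L hL (fun i => ¬ (px i = 1 ∧ qx i = 0)) hcover
  refine ⟨max N N1 + 1, maker_wins_of_all fun b hb => ?_⟩
  by_cases hc : max |b.1 - 13| |b.2 - 13| = 1 ∧ min |b.1 - 13| |b.2 - 13| = 0
  · have := force_canon (n := max N N1) (x := b.1) (y := b.2) (by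
      rw [hc.1, hc.2]
      exact hadj.mono (le_max_right _ _))
    simpa using this
  · refine (hN b hb fun i hi hpq => hc ?_).mono (le_max_left _ _)
    have hi' : cellOf i = ((b.1 - 13) + 13, (b.2 - 13) + 13) := by
      rw [hi]
      ext <;> simp
    have h1 := px_eq (b := (b.1 - 13, b.2 - 13)) hi'
    have h2 := qx_eq (b := (b.1 - 13, b.2 - 13)) hi'
    simp only at h1 h2
    rw [hpq.1] at h1
    rw [hpq.2] at h2
    push_cast at h1 h2
    exact ⟨h1.symm, h2.symm⟩

end Vale.Agent.Lib.P062
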