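import Vale.Agent.Lib.P062.Asm
import Vale.Agent.Lib.P062.CR.C1
import Vale.Agent.Lib.P062.CH.C0
import Vale.Agent.Lib.P062.CB.C0

namespace Vale.Agent.Lib.P062.TblA

set_option maxRecDepth 100000

/-- The proof for the opening without any reply. -/
noncomputable def x0 : Vale.Agent.Lib.P062.Core.OP := Vale.Agent.Lib.P062.CR.D8600

/-- The canonical replies and their proofs. -/
noncomputable def L : List Vale.Agent.Lib.P062.Asm.Row := [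
  (8, 8, Vale.Agent.Lib.P062.CR.D8600),
  (8, 7, Vale.Agent.Lib.P062.CR.D8600),
  (8, 6, Vale.Agent.Lib.P062.CR.D8600),
  (7, 7, Vale.Agent.Lib.P062.CR.D8600),
  (8, 5, Vale.Agent.Lib.P062.CR.D8600),
  (7, 6, Vale.Agent.Lib.P062.CR.D8600),
  (8, 4, Vale.Agent.Lib.P062.CR.D8600),
  (7, 5, Vale.Agent.Lib.P062.CR.D8600),
  (8, 3, Vale.Agent.Lib.P062.CR.D8600),
  (6, 6, Vale.Agent.Lib.P062.CR.D8600),
  (8, 2, Vale.Agent.Lib.P062.CR.D8600),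
  (7, 4, Vale.Agent.Lib.P062.CR.D8600),
  (8, 1, Vale.Agent.Lib.P062.CR.D8600),
  (8, 0, Vale.Agent.Lib.P062.CR.D8600),
  (6, 5, Vale.Agent.Lib.P062.CR.D8600),
  (7, 3, Vale.Agent.Lib.P062.CR.D8600),
  (7, 2, Vale.Agent.Lib.P062.CR.D8600),
  (6, 4, Vale.Agent.Lib.P062.CR.D8600),
  (5, 5, Vale.Agent.Lib.P062.CR.D8600),
  (7, 1, Vale.Agent.Lib.P062.CR.D13659),
  (7, 0, Vale.Agent.Lib.P062.CR.D8600),
  (6, 3, Vale.Agent.Lib.P062.CR.D8600),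
  (5, 4, Vale.Agent.Lib.P062.CR.D8600),
  (6, 2, Vale.Agent.Lib.P062.CR.D8600),
  (6, 1, Vale.Agent.Lib.P062.CR.D13659),
  (6, 0, Vale.Agent.Lib.P062.CR.D13659),
  (5, 3, Vale.Agent.Lib.P062.CR.D8600),
  (4, 4, Vale.Agent.Lib.P062.CR.D13825),
  (5, 2, Vale.Agent.Lib.P062.CR.D13659),
  (5, 1, Vale.Agent.Lib.P062.CR.D13890),
  (4, 3, Vale.Agent.Lib.P062.CR.D14225),
  (5, 0, Vale.Agent.Lib.P062.CR.D16427),
  (4, 2, Vale.Agent.Lib.P062.CR.D17268),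
  (3, 3, Vale.Agent.Lib.P062.CR.D18097),
  (4, 1, Vale.Agent.Lib.P062.CR.D19226),
  (4, 0, Vale.Agent.Lib.P062.CR.D19391),
  (3, 2, Vale.Agent.Lib.P062.CR.D19958),
  (3, 1, Vale.Agent.Lib.P062.CR.D22459),
  (3, 0, Vale.Agent.Lib.P062.CR.D25846),
  (2, 2, Vale.Agent.Lib.P062.CR.D26398),
  (2, 1, Vale.Agent.Lib.P062.CR.D30001),
  (1, 1, Vale.Agent.Lib.P062.CH.D11133),
  (2, 0, Vale.Agent.Lib.P062.CB.D11602)
]

theorem hx0 : Nat.beq x0.M (Nat.shiftLeft 1 210) = true := by decide +kernel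

theorem hsize : Nat.blt x0.F (Nat.shiftLeft 1 400) = true := by decide +kernel

theorem hL : L.all Vale.Agent.Lib.P062.Asm.rowOK = true := by decide +kernel

end Vale.Agent.Lib.P062.TblA
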